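import Vale.Agent.Lib.P064.Star

/-!
Counting copies of star forests: block decomposition of a copy, and the resulting bound.
-/

open SimpleGraph Finset

namespace Vale.Agent.Lib.P064

section Blocks

variable {V W : Type*} [Fintype V] [Fintype W] [DecidableEq V] [DecidableEq W]

/-- block data of a copy of a star system -/
noncomputable def blockMap (F : SimpleGraph W) (H : SimpleGraph V) (S : Finset W) (T : W → Finset W)
    (hadj : ∀ a b, a ∈ S → b ∈ T a → F.Adj a b) (f : Copy F H) :
    (v : S) → Σ u : V, ((T v) ↪ H.neighborSet u) :=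
  fun v => ⟨f v, ⟨fun w => ⟨f w, f.toHom.map_adj (hadj v w v.2 w.2)⟩, fun a b hab => by
    have := congrArg Subtype.val hab
    exact Subtype.ext (f.injective this)⟩⟩

omit [Fintype V] [Fintype W] [DecidableEq V] [DecidableEq W] in
lemma blockMap_eq_iff (F : SimpleGraph W) (H : SimpleGraph V) (S : Finset W) (T : W → Finset W)
    (hadj : ∀ a b, a ∈ S → b ∈ T a → F.Adj a b) (f g : Copy F H)
    (h : blockMap F H S T hadj f = blockMap F H S T hadj g) :
    (∀ v ∈ S, f v = g v) ∧ (∀ v ∈ S, ∀ w ∈ T v, f w = g w) := by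
  constructor
  · intro v hv
    have := congrFun h ⟨v, hv⟩
    exact congrArg Sigma.fst this
  · intro v hv w hw
    have := congrFun h ⟨v, hv⟩
    have h2 := congrArg (fun x : Σ u : V, ((T v) ↪ H.neighborSet u) =>
      ((x.2 ⟨w, hw⟩ : H.neighborSet x.1) : V)) this
    exact h2


lemma card_copy_le (F : SimpleGraph W) (H : SimpleGraph V) [DecidableRel H.Adj] (S : Finset W)
    (T : W → Finset W) (hadj : ∀ a b, a ∈ S → b ∈ T a → F.Adj a b) (W0 : Finset W)
    (hW0 : ∀ w ∈ W0, w ∈ S ∨ ∃ v ∈ S, w ∈ T v) :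
    Nat.card (Copy F H) ≤
      (Fintype.card V - W0.card).descFactorial (Fintype.card W - W0.card) *
        ∏ v ∈ S, ∑ u : V, (H.degree u).descFactorial (T v).card := by
  classical
  set k := (Fintype.card V - W0.card).descFactorial (Fintype.card W - W0.card) with hk
  have hB : Fintype.card ((v : S) → Σ u : V, ((T v) ↪ H.neighborSet u))
      = ∏ v ∈ S, ∑ u : V, (H.degree u).descFactorial (T v).card := by
    rw [Fintype.card_pi, ← Finset.prod_coe_sort S (fun v => ∑ u : V, (H.degree u).descFactorial (T v).card)]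
    refine Finset.prod_congr rfl ?_
    intro v _
    rw [Fintype.card_sigma]
    refine Finset.sum_congr rfl ?_
    intro u _
    rw [Fintype.card_embedding_eq, Fintype.card_coe, card_neighborSet_eq_degree]
  rw [Nat.card_eq_fintype_card, ← Finset.card_univ, ← hB]
  refine (Finset.card_le_mul_card_image (Finset.univ : Finset (Copy F H)) k
    (f := blockMap F H S T hadj) ?_).trans
    (Nat.mul_le_mul_left _ (Finset.card_le_univ _))
  intro b hb
  obtain ⟨f0, -, rfl⟩ := Finset.mem_image.1 hb
  set P := W0.image f0 with hP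
  have hPc : P.card = W0.card :=
    Finset.card_image_of_injective _ (show Function.Injective (f0 : W → V) from f0.injective)
  have hagree : ∀ f : Copy F H, blockMap F H S T hadj f = blockMap F H S T hadj f0 →
      ∀ w ∈ W0, f w = f0 w := by
    intro f hf w hw
    obtain ⟨h1, h2⟩ := blockMap_eq_iff F H S T hadj f f0 hf
    rcases hW0 w hw with h | ⟨v, hv, h⟩
    · exact h1 w h
    · exact h2 v hv w h
  have hcard : Fintype.card (↥(W0ᶜ) ↪ ↥(Pᶜ)) = k := by
    rw [Fintype.card_embedding_eq, Fintype.card_coe, Fintype.card_coe, Finset.card_compl,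
      Finset.card_compl, hPc]
  rw [← hcard, ← Fintype.card_subtype]
  refine Fintype.card_le_of_injective
    (fun f : {f : Copy F H // blockMap F H S T hadj f = blockMap F H S T hadj f0} =>
      (⟨fun i => ⟨f.1 i, ?_⟩, ?_⟩ : ↥(W0ᶜ) ↪ ↥(Pᶜ))) ?_
  · rw [Finset.mem_compl, hP, Finset.mem_image]
    rintro ⟨w, hw, hwi⟩
    rw [← hagree f.1 f.2 w hw] at hwi
    have : w = i := f.1.injective hwi
    exact (Finset.mem_compl.1 i.2) (this ▸ hw)
  · intro i j hij
    have := congrArg Subtype.val hij
    exact Subtype.ext (f.1.injective this)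
  · intro f g hfg
    apply Subtype.ext
    ext w
    by_cases hw : w ∈ W0
    · rw [hagree f.1 f.2 w hw, hagree g.1 g.2 w hw]
    · have := congrArg (fun e : ↥(W0ᶜ) ↪ ↥(Pᶜ) => ((e ⟨w, Finset.mem_compl.2 hw⟩ : ↥(Pᶜ)) : V)) hfg
      exact this


end Blocks

lemma pow_le_exp_mul_descFactorial (n k : ℕ) (hk : k ≤ n) :
    (n : ℝ) ^ k ≤ Real.exp k * (n.descFactorial k : ℝ) := by
  have h1 := choose_mul_pow_le k n hk k
  rw [Nat.choose_self, one_mul] at h1
  have h1' : (n : ℝ) ^ k ≤ (n.choose k : ℝ) * (k : ℝ) ^ k := by exact_mod_cast h1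
  have hfac : (0 : ℝ) < (k.factorial : ℝ) := by exact_mod_cast Nat.factorial_pos k
  have h3 : (k : ℝ) ^ k / k.factorial ≤ Real.exp k :=
    Real.pow_div_factorial_le_exp k (Nat.cast_nonneg k) k
  rw [div_le_iff₀ hfac] at h3
  rw [Nat.descFactorial_eq_factorial_mul_choose]
  push_cast
  calc (n : ℝ) ^ k ≤ (n.choose k : ℝ) * (k : ℝ) ^ k := h1'
    _ ≤ (n.choose k : ℝ) * (Real.exp k * k.factorial) :=
        mul_le_mul_of_nonneg_left h3 (Nat.cast_nonneg _)
    _ = Real.exp k * (k.factorial * n.choose k) := by ring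

lemma sum_descFactorial_le {V : Type*} [Fintype V] (n : ℕ) (H : SimpleGraph V) [DecidableRel H.Adj]
    (hV : Fintype.card V ≤ n) (q : ℝ) (hq0 : 0 ≤ q) (hq1 : q ≤ 1)
    (hH : ∀ K : H.Subgraph,
      1 ≤ ((⊤ : SimpleGraph (Fin n)).copyCount K.coe : ℝ) * q ^ K.coe.edgeSet.ncard)
    (t : ℕ) (ht : 1 ≤ t) :
    (∑ v : V, ((H.degree v).descFactorial t : ℝ)) ≤ (n.descFactorial (t + 1) : ℝ) * (41 * q) ^ t := by
  classical
  have hdesc : n.descFactorial (t + 1) = t.factorial * (n * (n - 1).choose t) := by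
    cases n with
    | zero => simp
    | succ k =>
      rw [Nat.succ_descFactorial_succ, Nat.descFactorial_eq_factorial_mul_choose]
      simp only [Nat.add_sub_cancel]
      ring
  obtain ⟨A, hA⟩ := exists_bipartition H t
  have hbound := analytic_bound A (fun v => (H.neighborFinset v \ A).card) n t q hq0 ht
    ((Finset.card_le_univ A).trans hV) (by
      intro v _
      have h1 : (H.neighborFinset v \ A).card ≤ H.degree v := by
        rw [← card_neighborFinset_eq_degree]
        exact Finset.card_le_card Finset.sdiff_subset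
      have h2 := H.degree_lt_card_verts v
      omega) (fun d => tail_bound n H q hq0 hq1 hH A d)
  have hA' : (∑ v : V, ((H.degree v).choose t : ℝ)) ≤
      2 ^ (t + 1) * ∑ v ∈ A, (((H.neighborFinset v \ A).card).choose t : ℝ) := by
    exact_mod_cast hA
  have hfac : (0 : ℝ) ≤ t.factorial := Nat.cast_nonneg _
  have e0 : (∑ v : V, ((H.degree v).descFactorial t : ℝ))
      = t.factorial * ∑ v : V, ((H.degree v).choose t : ℝ) := by
    rw [Finset.mul_sum]
    refine Finset.sum_congr rfl ?_
    intro v _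
    rw [Nat.descFactorial_eq_factorial_mul_choose]
    push_cast
    ring
  rw [e0, hdesc]
  push_cast
  calc (t.factorial : ℝ) * ∑ v : V, ((H.degree v).choose t : ℝ)
      ≤ t.factorial * (2 ^ (t + 1) * ((1 + Real.exp 1) *
            (n * (n - 1).choose t * (Real.exp 1 * q) ^ t))) := by
          refine mul_le_mul_of_nonneg_left (hA'.trans ?_) hfac
          exact mul_le_mul_of_nonneg_left hbound (by positivity)
    _ = (t.factorial * (n * (n - 1).choose t)) *
            (2 * (1 + Real.exp 1) * (2 * (Real.exp 1 * q)) ^ t) := by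
          rw [mul_pow 2 (Real.exp 1 * q) t]; ring
    _ ≤ (t.factorial * (n * (n - 1).choose t)) * (41 * q) ^ t :=
          mul_le_mul_of_nonneg_left (const_bound q hq0 t ht) (by positivity)


end Vale.Agent.Lib.P064
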