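import Vale.Agent.Lib.P064.Defs

/-!
Linearity of expectation: E N(G(n,p),F) = N(K_n,F) p^{e(F)}.
-/

open SimpleGraph Finset

namespace Vale.Agent.Lib.P064

lemma sum_Icc_weights {α : Type*} [DecidableEq α] (S0 E : Finset α) (h : S0 ⊆ E) (p : ℝ) :
    ∑ S ∈ Finset.Icc S0 E, p ^ S.card * (1 - p) ^ (E.card - S.card) = p ^ S0.card := by
  rw [Finset.Icc_eq_image_powerset h, Finset.sum_image]
  · have : ∀ R ∈ (E \ S0).powerset, p ^ (S0 ∪ R).card * (1 - p) ^ (E.card - (S0 ∪ R).card)
        = p ^ S0.card * (p ^ R.card * (1 - p) ^ ((E \ S0).card - R.card)) := by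
      intro R hR
      rw [Finset.mem_powerset] at hR
      have hdisj : Disjoint S0 R := by
        rw [Finset.disjoint_right]
        intro x hx
        exact (Finset.mem_sdiff.1 (hR hx)).2
      rw [Finset.card_union_of_disjoint hdisj, Finset.card_sdiff_of_subset h, pow_add, Nat.sub_sub]
      ring
    rw [Finset.sum_congr rfl this, ← Finset.mul_sum, Finset.sum_pow_mul_eq_add_pow]
    simp
  · intro R hR R' hR' hRR
    rw [Finset.mem_coe, Finset.mem_powerset] at hR hR'
    have h1 : ∀ Q : Finset α, Q ⊆ E \ S0 → (S0 ∪ Q) \ S0 = Q := by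
      intro Q hQ
      rw [Finset.union_sdiff_cancel_left]
      rw [Finset.disjoint_right]
      intro x hx
      exact (Finset.mem_sdiff.1 (hQ hx)).2
    have := congrArg (fun X => X \ S0) hRR
    simpa [h1 R hR, h1 R' hR'] using this

open Classical in
lemma sum_weights_ge (n : ℕ) (p : ℝ) (G0 : SimpleGraph (Fin n)) :
    ∑ G ∈ (Finset.univ : Finset (SimpleGraph (Fin n))).filter (fun G => G0 ≤ G),
      p ^ G.edgeSet.ncard * (1 - p) ^ (n.choose 2 - G.edgeSet.ncard) = p ^ G0.edgeSet.ncard := by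
  classical
  have hnc : ∀ G : SimpleGraph (Fin n), G.edgeSet.ncard = G.edgeFinset.card := by
    intro G
    rw [← coe_edgeFinset, Set.ncard_coe_finset]
  set E := (⊤ : SimpleGraph (Fin n)).edgeFinset with hE
  have hEc : E.card = n.choose 2 := by
    rw [hE, card_edgeFinset_top_eq_card_choose_two, Fintype.card_fin]
  rw [hnc G0, ← sum_Icc_weights G0.edgeFinset E (edgeFinset_mono le_top) p, hEc]
  refine Finset.sum_nbij' (fun G => G.edgeFinset) (fun S => fromEdgeSet (S : Set (Sym2 (Fin n))))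
    ?_ ?_ ?_ ?_ ?_
  · intro G hG
    rw [Finset.mem_filter] at hG
    rw [Finset.mem_Icc]
    exact ⟨edgeFinset_mono hG.2, edgeFinset_mono le_top⟩
  · intro S hS
    rw [Finset.mem_Icc] at hS
    rw [Finset.mem_filter]
    refine ⟨Finset.mem_univ _, ?_⟩
    intro a b hab
    rw [fromEdgeSet_adj]
    exact ⟨Finset.mem_coe.2 (hS.1 (mem_edgeFinset.2 hab)), hab.ne⟩
  · intro G _
    simp
  · intro S hS
    rw [Finset.mem_Icc] at hS
    ext e
    simp only [edgeFinset, Set.mem_toFinset, edgeSet_fromEdgeSet, Set.mem_sdiff, Finset.mem_coe]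
    constructor
    · exact fun h => h.1
    · intro h
      refine ⟨h, ?_⟩
      have := hS.2 h
      rw [hE, mem_edgeFinset] at this
      exact (⊤ : SimpleGraph (Fin n)).not_isDiag_of_mem_edgeSet this
  · intro G _
    rw [hnc G]


lemma copyCount_eq_natCard {V W : Type*} [Fintype V] (G : SimpleGraph V) (F : SimpleGraph W) :
    G.copyCount F = Nat.card {K : G.Subgraph // Nonempty (F ≃g K.coe)} := by
  classical
  rw [copyCount, Nat.card_eq_fintype_card, Fintype.card_subtype]

lemma copyCount_eq_natCard_top {W : Type*} (n : ℕ) (G : SimpleGraph (Fin n)) (F : SimpleGraph W) :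
    G.copyCount F = Nat.card {K : (⊤ : SimpleGraph (Fin n)).Subgraph //
      Nonempty (F ≃g K.coe) ∧ K.spanningCoe ≤ G} := by
  rw [copyCount_eq_natCard]
  refine Nat.card_congr ⟨fun K => ⟨⟨K.1.verts, K.1.Adj, fun h => by simpa using (K.1.adj_sub h).ne,
      K.1.edge_vert, K.1.symm⟩, K.2, fun a b hab => K.1.adj_sub hab⟩,
    fun K => ⟨⟨K.1.verts, K.1.Adj, fun h => K.2.2 h, K.1.edge_vert, K.1.symm⟩, K.2.1⟩, ?_, ?_⟩
  · intro K; rfl
  · intro K; rfl

lemma edge_ncard_of_iso {W : Type*} (n : ℕ) (F : SimpleGraph W)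
    (K : (⊤ : SimpleGraph (Fin n)).Subgraph) (h : Nonempty (F ≃g K.coe)) :
    K.spanningCoe.edgeSet.ncard = F.edgeSet.ncard := by
  obtain ⟨e⟩ := h
  have h1 : K.coe.edgeSet.ncard = K.edgeSet.ncard := by
    rw [← Subgraph.image_coe_edgeSet_coe, Set.ncard_image_of_injective]
    exact Sym2.map.injective Subtype.val_injective
  rw [Subgraph.edgeSet_spanningCoe, ← h1, ← Nat.card_coe_set_eq, ← Nat.card_coe_set_eq]
  exact (Nat.card_congr e.mapEdgeSet).symm

lemma expCopies_eq (n : ℕ) (p : ℝ) {W : Type*} (F : SimpleGraph W) :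
    expCopies n p F = ((⊤ : SimpleGraph (Fin n)).copyCount F : ℝ) * p ^ F.edgeSet.ncard := by
  classical
  unfold expCopies
  set KK : Finset (⊤ : SimpleGraph (Fin n)).Subgraph :=
    Finset.univ.filter (fun K => Nonempty (F ≃g K.coe)) with hKK
  have h1 : ∀ G : SimpleGraph (Fin n), (G.copyCount F : ℝ)
      = ∑ K ∈ KK, if K.spanningCoe ≤ G then (1 : ℝ) else 0 := by
    intro G
    rw [copyCount_eq_natCard_top, Nat.card_eq_fintype_card, Fintype.card_subtype,
      ← Finset.filter_filter, ← hKK, Finset.card_filter]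
    push_cast
    rfl
  have h2 : (⊤ : SimpleGraph (Fin n)).copyCount F = KK.card := by
    rw [copyCount_eq_natCard, Nat.card_eq_fintype_card, Fintype.card_subtype]
  rw [h2]
  simp_rw [h1, Finset.mul_sum]
  rw [Finset.sum_comm, ← nsmul_eq_mul, ← Finset.sum_const]
  refine Finset.sum_congr rfl ?_
  intro K hK
  rw [hKK, Finset.mem_filter] at hK
  rw [← edge_ncard_of_iso n F K hK.2, ← sum_weights_ge n p K.spanningCoe, Finset.sum_filter]
  refine Finset.sum_congr rfl ?_
  intro G _
  split_ifs <;> simp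

end Vale.Agent.Lib.P064
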