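import Vale.Agent.Lib.P064.Defs
import Vale.Agent.Lib.P064.Expectation
import Vale.Agent.Lib.P064.Blocks

/-!
Star forests: the counting statement and the comparison of tilde p_E with p_E.
-/

open SimpleGraph Finset

namespace Vale.Agent.Lib.P064

lemma labelled_starForest_le {V W : Type*} [Fintype V] [Fintype W] (n : ℕ) (H : SimpleGraph V)
    (hV : Fintype.card V ≤ n) (q : ℝ) (hq0 : 0 ≤ q) (hq1 : q ≤ 1)
    (hH : ∀ K : H.Subgraph,
      1 ≤ ((⊤ : SimpleGraph (Fin n)).copyCount K.coe : ℝ) * q ^ K.coe.edgeSet.ncard)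
    (F : SimpleGraph W) (hF : IsStarForest F) :
    (H.labelledCopyCount F : ℝ)
      ≤ (n.descFactorial (Fintype.card W) : ℝ) * (41 * Real.exp 2 * q) ^ F.edgeSet.ncard := by
  classical
  obtain ⟨C, h1, h2⟩ := hF
  by_cases hWn : Fintype.card W ≤ n
  swap
  · have h0 : H.labelledCopyCount F = 0 := by
      have := labelledCopyCount_le_descFactorial H F
      rw [Nat.descFactorial_eq_zero_iff_lt.2 (by omega)] at this
      omega
    rw [h0]
    simp only [Nat.cast_zero]
    positivity
  set S : Finset W := Finset.univ.filter (fun v => v ∈ C ∧ 0 < F.degree v) with hS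
  set T : W → Finset W := fun v => F.neighborFinset v with hT
  set W0 : Finset W := S.biUnion (fun v => insert v (T v)) with hW0
  have hSC : ∀ v ∈ S, v ∈ C := fun v hv => (Finset.mem_filter.1 hv).2.1
  have hSpos : ∀ v ∈ S, 1 ≤ F.degree v := fun v hv => (Finset.mem_filter.1 hv).2.2
  have hTcard : ∀ v, (T v).card = F.degree v := fun v => card_neighborFinset_eq_degree F v
  -- cardinality of W0
  have hW0card : W0.card = ∑ v ∈ S, (F.degree v + 1) := by
    rw [hW0, Finset.card_biUnion]
    · refine Finset.sum_congr rfl ?_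
      intro v _
      rw [Finset.card_insert_of_notMem (by simp [hT]), hTcard]
    · intro v hv v' hv' hne
      rw [Finset.mem_coe] at hv hv'
      show Disjoint (insert v (T v)) (insert v' (T v'))
      rw [Finset.disjoint_left]
      intro x hx hx'
      rw [Finset.mem_insert] at hx hx'
      simp only [hT, mem_neighborFinset] at hx hx'
      rcases hx with rfl | hx
      · rcases hx' with rfl | hx'
        · exact hne rfl
        · exact ((h1 v' x hx').1 (hSC v' hv')) (hSC x hv)
      · rcases hx' with rfl | hx'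
        · exact ((h1 v x hx).1 (hSC v hv)) (hSC x hv')
        · have hxC : x ∉ C := (h1 v x hx).1 (hSC v hv)
          exact hne (h2 x hxC v v' hx.symm hx'.symm)
  -- number of edges
  have hE : F.edgeSet.ncard = ∑ v ∈ S, F.degree v := by
    have hb : F.IsBipartiteWith (↑(Finset.univ.filter (fun v => v ∈ C)) : Set W)
        (↑(Finset.univ.filter (fun v => v ∉ C)) : Set W) := by
      constructor
      · rw [Set.disjoint_left]
        intro x hx hx'
        simp only [Finset.coe_filter, Finset.mem_univ, true_and, Set.mem_ofPred_eq] at hx hx'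
        exact hx' hx
      · intro v w hvw
        simp only [Finset.coe_filter, Finset.mem_univ, true_and, Set.mem_ofPred_eq]
        by_cases hv : v ∈ C
        · exact Or.inl ⟨hv, (h1 v w hvw).1 hv⟩
        · refine Or.inr ⟨hv, ?_⟩
          by_contra hw
          exact hv ((h1 v w hvw).2 hw)
    have := isBipartiteWith_sum_degrees_eq_card_edges hb
    rw [← coe_edgeFinset, Set.ncard_coe_finset, ← this]
    symm
    refine Finset.sum_subset ?_ ?_
    · intro v hv
      rw [Finset.mem_filter] at hv ⊢
      exact ⟨hv.1, hv.2.1⟩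
    · intro v hv hv'
      rw [Finset.mem_filter] at hv
      rw [hS, Finset.mem_filter] at hv'
      by_contra hne
      exact hv' ⟨hv.1, hv.2, Nat.pos_of_ne_zero hne⟩
  set E := ∑ v ∈ S, F.degree v with hEdef
  have hW0E : W0.card ≤ 2 * E := by
    rw [hW0card, hEdef, Finset.mul_sum]
    refine Finset.sum_le_sum ?_
    intro v hv
    have := hSpos v hv
    omega
  have hW0W : W0.card ≤ Fintype.card W := Finset.card_le_univ _
  have hcount := card_copy_le F H S T (by
      intro a b _ hb
      simpa [hT] using hb) W0 (by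
      intro w hw
      rw [hW0, Finset.mem_biUnion] at hw
      obtain ⟨v, hv, hw⟩ := hw
      rw [Finset.mem_insert] at hw
      rcases hw with rfl | hw
      · exact Or.inl hv
      · exact Or.inr ⟨v, hv, hw⟩)
  rw [← labelledCopyCount_eq_natCard] at hcount
  have hprod : (∏ v ∈ S, ∑ u : V, ((H.degree u).descFactorial (T v).card : ℝ))
      ≤ (n : ℝ) ^ W0.card * (41 * q) ^ E := by
    calc (∏ v ∈ S, ∑ u : V, ((H.degree u).descFactorial (T v).card : ℝ))
        ≤ ∏ v ∈ S, ((n : ℝ) ^ (F.degree v + 1) * (41 * q) ^ (F.degree v)) := by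
          refine Finset.prod_le_prod ?_ ?_
          · intro v _
            positivity
          · intro v hv
            rw [hTcard]
            refine (sum_descFactorial_le n H hV q hq0 hq1 hH _ (hSpos v hv)).trans ?_
            refine mul_le_mul_of_nonneg_right ?_ (by positivity)
            exact_mod_cast Nat.descFactorial_le_pow n _
      _ = (n : ℝ) ^ W0.card * (41 * q) ^ E := by
          rw [Finset.prod_mul_distrib, Finset.prod_pow_eq_pow_sum, Finset.prod_pow_eq_pow_sum,
            hW0card]
  have hk : ((Fintype.card V - W0.card).descFactorial (Fintype.card W - W0.card) : ℝ)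
      ≤ ((n - W0.card).descFactorial (Fintype.card W - W0.card) : ℝ) := by
    exact_mod_cast Nat.descFactorial_le _ (by omega)
  have hexp : Real.exp (W0.card : ℝ) ≤ Real.exp 2 ^ E := by
    rw [← Real.exp_nat_mul, Real.exp_le_exp]
    have : (W0.card : ℝ) ≤ 2 * E := by exact_mod_cast hW0E
    linarith
  rw [hE]
  calc (H.labelledCopyCount F : ℝ)
      ≤ ((Fintype.card V - W0.card).descFactorial (Fintype.card W - W0.card) : ℝ) *
        ∏ v ∈ S, ∑ u : V, ((H.degree u).descFactorial (T v).card : ℝ) := by
        exact_mod_cast hcount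
    _ ≤ ((n - W0.card).descFactorial (Fintype.card W - W0.card) : ℝ) *
        ((n : ℝ) ^ W0.card * (41 * q) ^ E) :=
        mul_le_mul hk hprod (Finset.prod_nonneg (fun v _ => by positivity)) (by positivity)
    _ ≤ ((n - W0.card).descFactorial (Fintype.card W - W0.card) : ℝ) *
        ((Real.exp 2 ^ E * (n.descFactorial W0.card : ℝ)) * (41 * q) ^ E) := by
        refine mul_le_mul_of_nonneg_left ?_ (by positivity)
        refine mul_le_mul_of_nonneg_right ?_ (by positivity)
        refine (pow_le_exp_mul_descFactorial n W0.card (hW0W.trans hWn)).trans ?_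
        exact mul_le_mul_of_nonneg_right hexp (by positivity)
    _ = (((n - W0.card).descFactorial (Fintype.card W - W0.card) * n.descFactorial W0.card : ℕ) : ℝ)
        * (41 * Real.exp 2 * q) ^ E := by
        push_cast
        rw [mul_pow (41 * Real.exp 2) q, mul_pow 41 (Real.exp 2), mul_pow 41 q]
        ring
    _ = (n.descFactorial (Fintype.card W) : ℝ) * (41 * Real.exp 2 * q) ^ E := by
        rw [Nat.descFactorial_mul_descFactorial hW0W]


lemma exp_two_bound : 41 * Real.exp 2 ≤ 303 := by
  have h := Real.exp_one_lt_d9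
  have h0 := Real.exp_pos 1
  have : Real.exp 2 = Real.exp 1 * Real.exp 1 := by
    rw [← Real.exp_add]; norm_num
  rw [this]
  nlinarith

theorem starForest_closed {V W : Type*} [Fintype V] [Fintype W] (n : ℕ) (H : SimpleGraph V)
    (hV : Fintype.card V ≤ n) (q : ℝ) (hq0 : 0 ≤ q) (hq1 : q ≤ 1)
    (hH : ∀ K : H.Subgraph,
      1 ≤ ((⊤ : SimpleGraph (Fin n)).copyCount K.coe : ℝ) * q ^ K.coe.edgeSet.ncard)
    (F : SimpleGraph W) (hF : IsStarForest F) :
    (H.copyCount F : ℝ)
      ≤ ((⊤ : SimpleGraph (Fin n)).copyCount F : ℝ) * (min 1 (303 * q)) ^ F.edgeSet.ncard := by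
  classical
  set aut := Nat.card (F ≃g F) with haut
  have hfin : Finite (F ≃g F) :=
    Finite.of_injective (fun e : F ≃g F => (e : W → W)) DFunLike.coe_injective
  have hne : Nonempty (F ≃g F) := ⟨Iso.refl⟩
  have hautpos : 0 < aut := Nat.card_pos
  have hautR : (0 : ℝ) < aut := by exact_mod_cast hautpos
  have hHl := labelledCopyCount_eq H F
  have hTl := labelledCopyCount_eq (⊤ : SimpleGraph (Fin n)) F
  rw [labelledCopyCount_top] at hTl
  rcases le_total 1 (303 * q) with hbig | hsmall
  · rw [min_eq_left hbig, one_pow, mul_one]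
    have h1 : H.copyCount F * aut ≤ (⊤ : SimpleGraph (Fin n)).copyCount F * aut := by
      rw [← hHl, ← hTl]
      exact (labelledCopyCount_le_descFactorial H F).trans (Nat.descFactorial_le _ hV)
    exact_mod_cast Nat.le_of_mul_le_mul_right h1 hautpos
  · rw [min_eq_right hsmall]
    have hl := labelled_starForest_le n H hV q hq0 hq1 hH F hF
    have hmain : (H.copyCount F : ℝ) * aut ≤
        ((⊤ : SimpleGraph (Fin n)).copyCount F : ℝ) * (303 * q) ^ F.edgeSet.ncard * aut := by
      have e1 : (H.copyCount F : ℝ) * aut = H.labelledCopyCount F := by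
        rw [hHl]; push_cast; ring
      have e2 : ((⊤ : SimpleGraph (Fin n)).copyCount F : ℝ) * aut
          = (n.descFactorial (Fintype.card W) : ℝ) := by
        rw [hTl]; push_cast; ring
      calc (H.copyCount F : ℝ) * aut = H.labelledCopyCount F := e1
        _ ≤ (n.descFactorial (Fintype.card W) : ℝ) * (41 * Real.exp 2 * q) ^ F.edgeSet.ncard := hl
        _ ≤ (n.descFactorial (Fintype.card W) : ℝ) * (303 * q) ^ F.edgeSet.ncard := by
            refine mul_le_mul_of_nonneg_left ?_ (Nat.cast_nonneg _)
            refine pow_le_pow_left₀ (by positivity) ?_ _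
            exact mul_le_mul_of_nonneg_right exp_two_bound hq0
        _ = ((⊤ : SimpleGraph (Fin n)).copyCount F : ℝ) * (303 * q) ^ F.edgeSet.ncard * aut := by
            rw [← e2]; ring
    exact le_of_mul_le_mul_right hmain hautR

lemma IsStarForest.coe {V : Type*} {H : SimpleGraph V} (hH : IsStarForest H) (K : H.Subgraph) :
    IsStarForest K.coe := by
  obtain ⟨C, h1, h2⟩ := hH
  refine ⟨{x | (x : V) ∈ C}, ?_, ?_⟩
  · intro a b hab
    exact h1 a b (K.adj_sub hab)
  · intro w hw a b hwa hwb
    exact Subtype.ext (h2 w hw a b (K.adj_sub hwa) (K.adj_sub hwb))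

lemma one_le_copyCount_top {V : Type*} [Fintype V] (n : ℕ) (H : SimpleGraph V)
    (hV : Fintype.card V ≤ n) (K : H.Subgraph) :
    (1 : ℝ) ≤ ((⊤ : SimpleGraph (Fin n)).copyCount K.coe : ℝ) := by
  classical
  have : 0 < (⊤ : SimpleGraph (Fin n)).copyCount K.coe := by
    rw [copyCount_pos]
    refine isContained_top_iff.2 (Function.Embedding.nonempty_of_card_le ?_)
    rw [Fintype.card_fin]
    exact (Fintype.card_subtype_le _).trans hV
  exact_mod_cast this

theorem pEtilde_le_of_starForest {V : Type*} [Fintype V] (n : ℕ) (H : SimpleGraph V)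
    (hV : Fintype.card V ≤ n) (hH : IsStarForest H) : pEtilde n H ≤ 606 * pE n H := by
  classical
  have hne : ({p : ℝ | 0 ≤ p ∧ p ≤ 1 ∧ ∀ K : H.Subgraph, 1 / 2 ≤ expCopies n p K.coe}).Nonempty := by
    refine ⟨1, zero_le_one, le_rfl, fun K => ?_⟩
    rw [expCopies_eq, one_pow, mul_one]
    linarith [one_le_copyCount_top n H hV K]
  have key : ∀ p ∈ {p : ℝ | 0 ≤ p ∧ p ≤ 1 ∧ ∀ K : H.Subgraph, 1 / 2 ≤ expCopies n p K.coe},
      pEtilde n H / 606 ≤ p := by
    rintro p ⟨hp0, hp1, hp⟩
    have hq : ∀ K : H.Subgraph, 1 ≤ ((⊤ : SimpleGraph (Fin n)).copyCount K.coe : ℝ)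
        * (min 1 (2 * p)) ^ K.coe.edgeSet.ncard := by
      intro K
      have hN := one_le_copyCount_top n H hV K
      rcases Nat.eq_zero_or_pos K.coe.edgeSet.ncard with h0 | hpos
      · rw [h0, pow_zero, mul_one]; exact hN
      rcases le_total 1 (2 * p) with hb | hs
      · rw [min_eq_left hb, one_pow, mul_one]; exact hN
      · rw [min_eq_right hs, mul_pow]
        have h1 := hp K
        rw [expCopies_eq] at h1
        have h2 : (2 : ℝ) ≤ 2 ^ K.coe.edgeSet.ncard := by
          calc (2 : ℝ) = 2 ^ 1 := by norm_num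
            _ ≤ 2 ^ K.coe.edgeSet.ncard := pow_le_pow_right₀ (by norm_num) hpos
        have h3 : 0 ≤ ((⊤ : SimpleGraph (Fin n)).copyCount K.coe : ℝ) * p ^ K.coe.edgeSet.ncard := by
          positivity
        nlinarith
    have hmem : min 1 (606 * p) ∈ {p : ℝ | 0 ≤ p ∧ p ≤ 1 ∧
        ∀ K : H.Subgraph, (H.copyCount K.coe : ℝ) / 2 ≤ expCopies n p K.coe} := by
      refine ⟨le_min zero_le_one (by positivity), min_le_left _ _, fun K => ?_⟩
      have hB := starForest_closed n H hV (min 1 (2 * p)) (le_min zero_le_one (by positivity))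
        (min_le_left _ _) hq K.coe (hH.coe K)
      rw [expCopies_eq]
      have hmono : min 1 (303 * min 1 (2 * p)) ≤ min 1 (606 * p) := by
        refine min_le_min le_rfl ?_
        have := min_le_right 1 (2 * p)
        linarith
      have h0 : (0 : ℝ) ≤ min 1 (303 * min 1 (2 * p)) :=
        le_min zero_le_one (mul_nonneg (by norm_num) (le_min zero_le_one (by positivity)))
      have h4 : ((⊤ : SimpleGraph (Fin n)).copyCount K.coe : ℝ)
            * (min 1 (303 * min 1 (2 * p))) ^ K.coe.edgeSet.ncard
          ≤ ((⊤ : SimpleGraph (Fin n)).copyCount K.coe : ℝ)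
            * (min 1 (606 * p)) ^ K.coe.edgeSet.ncard :=
        mul_le_mul_of_nonneg_left (pow_le_pow_left₀ h0 hmono _) (Nat.cast_nonneg _)
      have h5 : (0 : ℝ) ≤ (H.copyCount K.coe : ℝ) := Nat.cast_nonneg _
      linarith
    have hbdd : BddBelow {p : ℝ | 0 ≤ p ∧ p ≤ 1 ∧
        ∀ K : H.Subgraph, (H.copyCount K.coe : ℝ) / 2 ≤ expCopies n p K.coe} :=
      ⟨0, fun x hx => hx.1⟩
    have h6 : pEtilde n H ≤ min 1 (606 * p) := csInf_le hbdd hmem
    have h7 := min_le_right 1 (606 * p)
    linarith
  have := le_csInf hne key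
  unfold pE
  linarith

end Vale.Agent.Lib.P064
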