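import Vale.Agent.Lib.P064.Components
import Vale.Agent.Lib.P064.StarForest

/-!
The counting statement and the threshold comparison with a loss linear in the maximum degree,
and the resulting bound for all graphs.
-/

open SimpleGraph Finset

namespace Vale.Agent.Lib.P064

/-- from a bound for labelled copies to a bound for copies -/
theorem copyCount_le_of_labelled {V W : Type*} [Fintype V] [Fintype W] (n : ℕ) (H : SimpleGraph V)
    (hV : Fintype.card V ≤ n) (F : SimpleGraph W) (x : ℝ)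
    (hl : (H.labelledCopyCount F : ℝ)
      ≤ (n.descFactorial (Fintype.card W) : ℝ) * x ^ F.edgeSet.ncard) :
    (H.copyCount F : ℝ)
      ≤ ((⊤ : SimpleGraph (Fin n)).copyCount F : ℝ) * (min 1 x) ^ F.edgeSet.ncard := by
  classical
  set aut := Nat.card (F ≃g F) with haut
  have hfin : Finite (F ≃g F) :=
    Finite.of_injective (fun e : F ≃g F => (e : W → W)) DFunLike.coe_injective
  have hne : Nonempty (F ≃g F) := ⟨Iso.refl⟩
  have hautpos : 0 < aut := Nat.card_pos
  have hautR : (0 : ℝ) < aut := by exact_mod_cast hautpos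
  have hHl := labelledCopyCount_eq H F
  have hTl := labelledCopyCount_eq (⊤ : SimpleGraph (Fin n)) F
  rw [labelledCopyCount_top] at hTl
  rcases le_total 1 x with hbig | hsmall
  · rw [min_eq_left hbig, one_pow, mul_one]
    have h1 : H.copyCount F * aut ≤ (⊤ : SimpleGraph (Fin n)).copyCount F * aut := by
      rw [← hHl, ← hTl]
      exact (labelledCopyCount_le_descFactorial H F).trans (Nat.descFactorial_le _ hV)
    exact_mod_cast Nat.le_of_mul_le_mul_right h1 hautpos
  · rw [min_eq_right hsmall]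
    have hmain : (H.copyCount F : ℝ) * aut ≤
        ((⊤ : SimpleGraph (Fin n)).copyCount F : ℝ) * x ^ F.edgeSet.ncard * aut := by
      have e1 : (H.copyCount F : ℝ) * aut = H.labelledCopyCount F := by
        rw [hHl]; push_cast; ring
      have e2 : ((⊤ : SimpleGraph (Fin n)).copyCount F : ℝ) * aut
          = (n.descFactorial (Fintype.card W) : ℝ) := by
        rw [hTl]; push_cast; ring
      calc (H.copyCount F : ℝ) * aut = H.labelledCopyCount F := e1
        _ ≤ (n.descFactorial (Fintype.card W) : ℝ) * x ^ F.edgeSet.ncard := hl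
        _ = ((⊤ : SimpleGraph (Fin n)).copyCount F : ℝ) * x ^ F.edgeSet.ncard * aut := by
            rw [← e2]; ring
    exact le_of_mul_le_mul_right hmain hautR

lemma four_exp_bound : 4 * Real.exp 1 * Real.exp 2 ≤ 81 := by
  have h := Real.exp_one_lt_d9
  have h0 := Real.exp_pos 1
  have h2 : Real.exp 2 = Real.exp 1 * Real.exp 1 := by
    rw [← Real.exp_add]; norm_num
  rw [h2]
  have h3 : Real.exp 1 * Real.exp 1 ≤ 2.7182818286 * 2.7182818286 :=
    mul_le_mul h.le h.le h0.le (by norm_num)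
  have h4 : Real.exp 1 * (Real.exp 1 * Real.exp 1) ≤ 2.7182818286 * (2.7182818286 * 2.7182818286) :=
    mul_le_mul h.le h3 (by positivity) (by norm_num)
  nlinarith

/-- the counting statement with loss `81 D` -/
theorem bddDegree_closed {V W : Type*} [Fintype V] [Fintype W] (n : ℕ) (H : SimpleGraph V)
    (hV : Fintype.card V ≤ n) (q : ℝ) (hq0 : 0 ≤ q)
    (hH : ∀ K : H.Subgraph,
      1 ≤ ((⊤ : SimpleGraph (Fin n)).copyCount K.coe : ℝ) * q ^ K.coe.edgeSet.ncard)
    (D : ℕ) (hD : ∀ v, (H.neighborSet v).ncard ≤ D) (F : SimpleGraph W) :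
    (H.copyCount F : ℝ)
      ≤ ((⊤ : SimpleGraph (Fin n)).copyCount F : ℝ) * (min 1 (81 * D * q)) ^ F.edgeSet.ncard := by
  refine copyCount_le_of_labelled n H hV F _ ?_
  refine (labelled_bddDegree_le n H hV q hq0 hH D hD F).trans ?_
  refine mul_le_mul_of_nonneg_left ?_ (Nat.cast_nonneg _)
  refine pow_le_pow_left₀ (by positivity) ?_ _
  have h := four_exp_bound
  have hDq : (0 : ℝ) ≤ D * q := by positivity
  calc 4 * Real.exp 1 * D * q * Real.exp 2 = (4 * Real.exp 1 * Real.exp 2) * (D * q) := by ring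
    _ ≤ 81 * (D * q) := mul_le_mul_of_nonneg_right h hDq
    _ = 81 * D * q := by ring

/-- at a density `p` where all expectations are at least one half, all expectations at
`min 1 (2p)` are at least one -/
lemma closed_of_mem {V : Type*} [Fintype V] (n : ℕ) (H : SimpleGraph V)
    (hV : Fintype.card V ≤ n) (p : ℝ) (hp0 : 0 ≤ p)
    (hp : ∀ K : H.Subgraph, 1 / 2 ≤ expCopies n p K.coe) (K : H.Subgraph) :
    1 ≤ ((⊤ : SimpleGraph (Fin n)).copyCount K.coe : ℝ)
        * (min 1 (2 * p)) ^ K.coe.edgeSet.ncard := by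
  have hN := one_le_copyCount_top n H hV K
  rcases Nat.eq_zero_or_pos K.coe.edgeSet.ncard with h0 | hpos
  · rw [h0, pow_zero, mul_one]; exact hN
  rcases le_total 1 (2 * p) with hb | hs
  · rw [min_eq_left hb, one_pow, mul_one]; exact hN
  · rw [min_eq_right hs, mul_pow]
    have h1 := hp K
    rw [expCopies_eq] at h1
    have h2 : (2 : ℝ) ≤ 2 ^ K.coe.edgeSet.ncard := by
      calc (2 : ℝ) = 2 ^ 1 := by norm_num
        _ ≤ 2 ^ K.coe.edgeSet.ncard := pow_le_pow_right₀ (by norm_num) hpos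
    have h3 : 0 ≤ ((⊤ : SimpleGraph (Fin n)).copyCount K.coe : ℝ) * p ^ K.coe.edgeSet.ncard := by
      positivity
    nlinarith

lemma pE_set_nonempty {V : Type*} [Fintype V] (n : ℕ) (H : SimpleGraph V)
    (hV : Fintype.card V ≤ n) :
    ({p : ℝ | 0 ≤ p ∧ p ≤ 1 ∧ ∀ K : H.Subgraph, 1 / 2 ≤ expCopies n p K.coe}).Nonempty := by
  refine ⟨1, zero_le_one, le_rfl, fun K => ?_⟩
  rw [expCopies_eq, one_pow, mul_one]
  linarith [one_le_copyCount_top n H hV K]

/-- general passage from a counting statement with loss `C` to `pEtilde ≤ 2 C pE` -/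
theorem pEtilde_le_of_closed {V : Type*} [Fintype V] (n : ℕ) (H : SimpleGraph V)
    (hV : Fintype.card V ≤ n) (C : ℝ) (hC : 0 < C)
    (hcl : ∀ q : ℝ, 0 ≤ q → q ≤ 1 → (∀ K : H.Subgraph,
      1 ≤ ((⊤ : SimpleGraph (Fin n)).copyCount K.coe : ℝ) * q ^ K.coe.edgeSet.ncard) →
      ∀ K : H.Subgraph, (H.copyCount K.coe : ℝ)
      ≤ ((⊤ : SimpleGraph (Fin n)).copyCount K.coe : ℝ) * (min 1 (C * q)) ^ K.coe.edgeSet.ncard) :
    pEtilde n H ≤ 2 * C * pE n H := by
  classical
  have hne := pE_set_nonempty n H hV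
  have key : ∀ p ∈ {p : ℝ | 0 ≤ p ∧ p ≤ 1 ∧ ∀ K : H.Subgraph, 1 / 2 ≤ expCopies n p K.coe},
      pEtilde n H / (2 * C) ≤ p := by
    rintro p ⟨hp0, hp1, hp⟩
    have hq := closed_of_mem n H hV p hp0 hp
    have hmem : min 1 (2 * C * p) ∈ {p : ℝ | 0 ≤ p ∧ p ≤ 1 ∧
        ∀ K : H.Subgraph, (H.copyCount K.coe : ℝ) / 2 ≤ expCopies n p K.coe} := by
      refine ⟨le_min zero_le_one (by positivity), min_le_left _ _, fun K => ?_⟩
      have hB := hcl (min 1 (2 * p)) (le_min zero_le_one (by positivity))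
        (min_le_left _ _) hq K
      rw [expCopies_eq]
      have hmono : min 1 (C * min 1 (2 * p)) ≤ min 1 (2 * C * p) := by
        refine min_le_min le_rfl ?_
        have := min_le_right 1 (2 * p)
        nlinarith
      have h0 : (0 : ℝ) ≤ min 1 (C * min 1 (2 * p)) :=
        le_min zero_le_one (mul_nonneg hC.le (le_min zero_le_one (by positivity)))
      have h4 : ((⊤ : SimpleGraph (Fin n)).copyCount K.coe : ℝ)
            * (min 1 (C * min 1 (2 * p))) ^ K.coe.edgeSet.ncard
          ≤ ((⊤ : SimpleGraph (Fin n)).copyCount K.coe : ℝ)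
            * (min 1 (2 * C * p)) ^ K.coe.edgeSet.ncard :=
        mul_le_mul_of_nonneg_left (pow_le_pow_left₀ h0 hmono _) (Nat.cast_nonneg _)
      have h5 : (0 : ℝ) ≤ (H.copyCount K.coe : ℝ) := Nat.cast_nonneg _
      linarith
    have hbdd : BddBelow {p : ℝ | 0 ≤ p ∧ p ≤ 1 ∧
        ∀ K : H.Subgraph, (H.copyCount K.coe : ℝ) / 2 ≤ expCopies n p K.coe} :=
      ⟨0, fun x hx => hx.1⟩
    have h6 : pEtilde n H ≤ min 1 (2 * C * p) := csInf_le hbdd hmem
    have h7 := min_le_right 1 (2 * C * p)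
    rw [div_le_iff₀ (by positivity)]
    linarith
  have := le_csInf hne key
  unfold pE
  rw [div_le_iff₀ (by positivity)] at this
  linarith

theorem pEtilde_le_of_bddDegree {V : Type*} [Fintype V] (n : ℕ) (H : SimpleGraph V)
    (hV : Fintype.card V ≤ n) (D : ℕ) (hD0 : 1 ≤ D) (hD : ∀ v, (H.neighborSet v).ncard ≤ D) :
    pEtilde n H ≤ 162 * D * pE n H := by
  classical
  have hD0' : (1 : ℝ) ≤ D := by exact_mod_cast hD0
  have := pEtilde_le_of_closed n H hV (81 * D) (by positivity)
    (fun q hq0 _ hH K => bddDegree_closed n H hV q hq0 hH D hD K.coe)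
  calc pEtilde n H ≤ 2 * (81 * D) * pE n H := this
    _ = 162 * D * pE n H := by ring

end Vale.Agent.Lib.P064
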