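import Vale.Agent.Lib.P064.BddDegree

/-!
The maximum degree of a graph all of whose subgraphs have expectation at least one at density `q`
is at most `max (41 e^2 n q) (log n)`; consequence for the thresholds of arbitrary graphs.
-/

open SimpleGraph Finset

namespace Vale.Agent.Lib.P064

lemma degree_le_max {V : Type*} [Fintype V] (n : ℕ) (H : SimpleGraph V) [DecidableRel H.Adj]
    (hV : Fintype.card V ≤ n) (q : ℝ) (hq0 : 0 ≤ q) (hq1 : q ≤ 1)
    (hH : ∀ K : H.Subgraph,
      1 ≤ ((⊤ : SimpleGraph (Fin n)).copyCount K.coe : ℝ) * q ^ K.coe.edgeSet.ncard)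
    (v : V) :
    (H.degree v : ℝ) ≤ max (41 * Real.exp 2 * n * q) (Real.log n) := by
  set d := H.degree v with hd
  rcases Nat.eq_zero_or_pos d with h0 | hpos
  · rw [h0]
    simp only [Nat.cast_zero]
    exact le_max_of_le_left (by positivity)
  rcases le_total (d : ℝ) (41 * Real.exp 2 * n * q) with hle | hge
  · exact le_max_of_le_left hle
  refine le_max_of_le_right ?_
  have hsum := sum_descFactorial_le n H hV q hq0 hq1 hH d hpos
  have h1 : ((d.factorial : ℕ) : ℝ) ≤ ∑ v : V, ((H.degree v).descFactorial d : ℝ) := by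
    have : ((H.degree v).descFactorial d : ℝ) ≤ ∑ v : V, ((H.degree v).descFactorial d : ℝ) :=
      Finset.single_le_sum (f := fun v => ((H.degree v).descFactorial d : ℝ))
        (fun i _ => Nat.cast_nonneg _) (Finset.mem_univ v)
    rwa [← hd, Nat.descFactorial_self] at this
  have h2 : (n.descFactorial (d + 1) : ℝ) ≤ (n : ℝ) ^ (d + 1) := by
    exact_mod_cast Nat.descFactorial_le_pow n (d + 1)
  have h3 := pow_le_exp_mul_descFactorial d d le_rfl
  rw [Nat.descFactorial_self] at h3
  have hdpos : (0 : ℝ) < (d : ℝ) ^ d := by positivity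
  have h4 : (d : ℝ) ^ d ≤ Real.exp d * ((n : ℝ) ^ (d + 1) * (41 * q) ^ d) := by
    refine h3.trans (mul_le_mul_of_nonneg_left ?_ (Real.exp_pos _).le)
    exact (h1.trans hsum).trans (mul_le_mul_of_nonneg_right h2 (by positivity))
  have h5 : (41 * Real.exp 2 * n * q) ^ d ≤ (d : ℝ) ^ d :=
    pow_le_pow_left₀ (by positivity) hge d
  have h6 : Real.exp d * (d : ℝ) ^ d ≤ n * (d : ℝ) ^ d := by
    calc Real.exp d * (d : ℝ) ^ d
        ≤ Real.exp d * (Real.exp d * ((n : ℝ) ^ (d + 1) * (41 * q) ^ d)) :=
          mul_le_mul_of_nonneg_left h4 (Real.exp_pos _).le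
      _ = n * (41 * Real.exp 2 * n * q) ^ d := by
          have : Real.exp 2 ^ d = Real.exp d * Real.exp d := by
            rw [← Real.exp_nat_mul, ← Real.exp_add]
            congr 1
            ring
          simp only [mul_pow]
          rw [this, pow_succ]
          ring
      _ ≤ n * (d : ℝ) ^ d := mul_le_mul_of_nonneg_left h5 (Nat.cast_nonneg _)
  have h7 : Real.exp d ≤ n := le_of_mul_le_mul_right h6 hdpos
  have hn : (0 : ℝ) < n := lt_of_lt_of_le (Real.exp_pos _) h7
  exact (Real.le_log_iff_exp_le hn).2 h7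

lemma exp_two_bound' : 82 * Real.exp 2 ≤ 606 := by
  have h := Real.exp_one_lt_d9
  have h0 := Real.exp_pos 1
  have : Real.exp 2 = Real.exp 1 * Real.exp 1 := by
    rw [← Real.exp_add]; norm_num
  rw [this]
  nlinarith

lemma pE_nonneg (n : ℕ) {V : Type*} (H : SimpleGraph V) : 0 ≤ pE n H :=
  Real.sInf_nonneg (fun _ hx => hx.1)

theorem pEtilde_le_general {V : Type*} [Fintype V] (n : ℕ) (H : SimpleGraph V)
    (hV : Fintype.card V ≤ n) (hE : ∃ a b, H.Adj a b) :
    pEtilde n H ≤ 162 * max (606 * n * pE n H) (Real.log n) * pE n H := by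
  classical
  obtain ⟨a, b, hab⟩ := hE
  have : Nonempty V := ⟨a⟩
  obtain ⟨v, hv⟩ := H.exists_maximal_degree_vertex
  set D := H.maxDegree with hDdef
  have hD : ∀ w, (H.neighborSet w).ncard ≤ D := by
    intro w
    rw [← coe_neighborFinset, Set.ncard_coe_finset, card_neighborFinset_eq_degree]
    exact H.degree_le_maxDegree w
  have hD0 : 1 ≤ D := by
    have h1 : 0 < H.degree a := (H.degree_pos_iff_exists_adj a).2 ⟨b, hab⟩
    exact h1.trans_le (H.degree_le_maxDegree a)
  have hn : 0 < n := lt_of_lt_of_le Fintype.card_pos hV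
  have hnR : (0 : ℝ) < n := by exact_mod_cast hn
  have hmain := pEtilde_le_of_bddDegree n H hV D hD0 hD
  have hp : ∀ p ∈ {p : ℝ | 0 ≤ p ∧ p ≤ 1 ∧ ∀ K : H.Subgraph, 1 / 2 ≤ expCopies n p K.coe},
      (D : ℝ) ≤ max (606 * n * p) (Real.log n) := by
    rintro p ⟨hp0, hp1, hp⟩
    have hq := closed_of_mem n H hV p hp0 hp
    have := degree_le_max n H hV (min 1 (2 * p)) (le_min zero_le_one (by positivity))
      (min_le_left _ _) hq v
    rw [← hv] at this
    refine this.trans (max_le_max ?_ le_rfl)
    have h1 := min_le_right 1 (2 * p)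
    have h2 := exp_two_bound'
    calc 41 * Real.exp 2 * n * min 1 (2 * p) ≤ 41 * Real.exp 2 * n * (2 * p) :=
          mul_le_mul_of_nonneg_left h1 (by positivity)
      _ = (82 * Real.exp 2) * (n * p) := by ring
      _ ≤ 606 * (n * p) := mul_le_mul_of_nonneg_right h2 (by positivity)
      _ = 606 * n * p := by ring
  have hDle : (D : ℝ) ≤ max (606 * n * pE n H) (Real.log n) := by
    rcases le_total (D : ℝ) (Real.log n) with h | h
    · exact le_max_of_le_right h
    rcases eq_or_lt_of_le h with h | h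
    · exact le_max_of_le_right h.ge
    refine le_max_of_le_left ?_
    have key : (D : ℝ) / (606 * n) ≤ pE n H := by
      refine le_csInf (pE_set_nonempty n H hV) ?_
      intro p hpm
      have h1 := hp p hpm
      rcases le_max_iff.1 h1 with h2 | h2
      · rw [div_le_iff₀ (by positivity)]
        linarith
      · exact absurd h2 (not_le.2 h)
    rw [div_le_iff₀ (by positivity)] at key
    linarith
  have hpE := pE_nonneg n H
  calc pEtilde n H ≤ 162 * D * pE n H := hmain
    _ ≤ 162 * max (606 * n * pE n H) (Real.log n) * pE n H := by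
        refine mul_le_mul_of_nonneg_right ?_ hpE
        linarith

end Vale.Agent.Lib.P064
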