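import Vale.Agent.Lib.P064.ConnCount

/-!
Decomposition of a graph into connected components: vertex and edge counts, and the bound for the
number of labelled copies of an arbitrary graph in a graph of bounded degree.
-/

open SimpleGraph Finset

namespace Vale.Agent.Lib.P064

section Components

open scoped Classical

variable {V W : Type*} [Fintype V] [Fintype W]

/-- the vertices of a component, as a finset -/
noncomputable def compFin (F : SimpleGraph W) (c : F.ConnectedComponent) : Finset W :=
  Finset.univ.filter (fun w => F.connectedComponentMk w = c)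

lemma mem_compFin (F : SimpleGraph W) (c : F.ConnectedComponent) (w : W) :
    w ∈ compFin F c ↔ F.connectedComponentMk w = c := by
  simp [compFin]

lemma card_comp (F : SimpleGraph W) (c : F.ConnectedComponent) :
    Fintype.card c = (compFin F c).card := by
  rw [compFin, ← Fintype.card_subtype]
  rfl

lemma comp_degree (F : SimpleGraph W) (c : F.ConnectedComponent) (x : c) :
    c.toSimpleGraph.degree x = F.degree x.1 := by
  rw [← card_neighborFinset_eq_degree, ← card_neighborFinset_eq_degree]
  refine Finset.card_bij (fun y _ => y.1) ?_ ?_ ?_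
  · intro y hy
    rw [mem_neighborFinset] at hy ⊢
    exact hy
  · intro a _ b _ h
    exact Subtype.ext h
  · intro y hy
    rw [mem_neighborFinset] at hy
    refine ⟨⟨y, c.mem_supp_of_adj_mem_supp x.2 hy⟩, ?_, rfl⟩
    rw [mem_neighborFinset]
    exact hy

lemma comp_edges (F : SimpleGraph W) (c : F.ConnectedComponent) :
    2 * c.toSimpleGraph.edgeSet.ncard = ∑ w ∈ compFin F c, F.degree w := by
  rw [← coe_edgeFinset, Set.ncard_coe_finset, ← sum_degrees_eq_twice_card_edges]
  rw [Finset.sum_congr rfl (fun x _ => comp_degree F c x)]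
  symm
  exact Finset.sum_subtype (compFin F c) (fun w => mem_compFin F c w) (fun w => F.degree w)

/-- a general fibre bound: if the map `Φ` determines a copy on `W0`, then each fibre consists of
injections of the remaining vertices into the remaining part of `V`. -/
lemma card_copy_le_fiber {β : Type*} (F : SimpleGraph W) (H : SimpleGraph V)
    (Φ : Copy F H → β) (W0 : Finset W)
    (hΦ : ∀ f g, Φ f = Φ g → ∀ w ∈ W0, f w = g w) :
    Fintype.card (Copy F H) ≤
      (Fintype.card V - W0.card).descFactorial (Fintype.card W - W0.card) *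
        (Finset.univ.image Φ).card := by
  set k := (Fintype.card V - W0.card).descFactorial (Fintype.card W - W0.card) with hk
  rw [← Finset.card_univ]
  refine Finset.card_le_mul_card_image (Finset.univ : Finset (Copy F H)) k (f := Φ) ?_
  intro b hb
  obtain ⟨f0, -, rfl⟩ := Finset.mem_image.1 hb
  set P := W0.image f0 with hP
  have hPc : P.card = W0.card :=
    Finset.card_image_of_injective _ (show Function.Injective (f0 : W → V) from f0.injective)
  have hcard : Fintype.card (↥(W0ᶜ) ↪ ↥(Pᶜ)) = k := by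
    rw [Fintype.card_embedding_eq, Fintype.card_coe, Fintype.card_coe, Finset.card_compl,
      Finset.card_compl, hPc]
  rw [← hcard, ← Fintype.card_subtype]
  refine Fintype.card_le_of_injective
    (fun f : {f : Copy F H // Φ f = Φ f0} =>
      (⟨fun i => ⟨f.1 i, ?_⟩, ?_⟩ : ↥(W0ᶜ) ↪ ↥(Pᶜ))) ?_
  · rw [Finset.mem_compl, hP, Finset.mem_image]
    rintro ⟨w, hw, hwi⟩
    rw [← hΦ f.1 f0 f.2 w hw] at hwi
    have : w = i := f.1.injective hwi
    exact (Finset.mem_compl.1 i.2) (this ▸ hw)
  · intro i j hij
    have := congrArg Subtype.val hij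
    exact Subtype.ext (f.1.injective this)
  · intro f g hfg
    apply Subtype.ext
    ext w
    by_cases hw : w ∈ W0
    · rw [hΦ f.1 f0 f.2 w hw, hΦ g.1 f0 g.2 w hw]
    · have := congrArg (fun e : ↥(W0ᶜ) ↪ ↥(Pᶜ) => ((e ⟨w, Finset.mem_compl.2 hw⟩ : ↥(Pᶜ)) : V)) hfg
      exact this

/-- restriction of a copy to a component -/
def restrictComp {F : SimpleGraph W} {H : SimpleGraph V} (f : Copy F H)
    (c : F.ConnectedComponent) : Copy c.toSimpleGraph H :=
  f.comp ⟨c.toSimpleGraph_hom, Subtype.val_injective⟩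

lemma restrictComp_apply {F : SimpleGraph W} {H : SimpleGraph V} (f : Copy F H)
    (c : F.ConnectedComponent) (x : c) : restrictComp f c x = f x.1 := rfl

/-- the components with at least two vertices -/
noncomputable def bigComps (F : SimpleGraph W) : Finset F.ConnectedComponent :=
  Finset.univ.filter (fun c => 2 ≤ (compFin F c).card)

/-- the vertices in components with at least two vertices -/
noncomputable def bigVerts (F : SimpleGraph W) : Finset W :=
  (bigComps F).biUnion (fun c => compFin F c)

lemma compFin_disjoint (F : SimpleGraph W) (S : Finset F.ConnectedComponent) :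
    (S : Set F.ConnectedComponent).PairwiseDisjoint (fun c => compFin F c) := by
  intro c _ c' _ hne
  show Disjoint (compFin F c) (compFin F c')
  rw [Finset.disjoint_left]
  intro x hx hx'
  rw [mem_compFin] at hx hx'
  exact hne (hx.symm.trans hx')

lemma bigVerts_card (F : SimpleGraph W) :
    (bigVerts F).card = ∑ c ∈ bigComps F, (compFin F c).card := by
  rw [bigVerts, Finset.card_biUnion (compFin_disjoint F _)]

lemma degree_eq_zero_of_notMem_bigVerts (F : SimpleGraph W) (w : W) (hw : w ∉ bigVerts F) :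
    F.degree w = 0 := by
  by_contra hne
  obtain ⟨y, hy⟩ : ∃ y, F.Adj w y := by
    have : 0 < F.degree w := Nat.pos_of_ne_zero hne
    rw [← card_neighborFinset_eq_degree, Finset.card_pos] at this
    obtain ⟨y, hy⟩ := this
    exact ⟨y, (mem_neighborFinset _ _ _).1 hy⟩
  apply hw
  rw [bigVerts, Finset.mem_biUnion]
  refine ⟨F.connectedComponentMk w, ?_, (mem_compFin _ _ _).2 rfl⟩
  rw [bigComps, Finset.mem_filter]
  refine ⟨Finset.mem_univ _, ?_⟩
  have hsub : ({w, y} : Finset W) ⊆ compFin F (F.connectedComponentMk w) := by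
    intro z hz
    rw [Finset.mem_insert, Finset.mem_singleton] at hz
    rw [mem_compFin]
    rcases hz with rfl | rfl
    · rfl
    · exact (ConnectedComponent.connectedComponentMk_eq_of_adj hy).symm
  have := Finset.card_le_card hsub
  rwa [Finset.card_pair hy.ne] at this

lemma edges_eq_sum_bigComps (F : SimpleGraph W) :
    F.edgeSet.ncard = ∑ c ∈ bigComps F, c.toSimpleGraph.edgeSet.ncard := by
  have h1 : ∑ c ∈ bigComps F, 2 * c.toSimpleGraph.edgeSet.ncard
      = ∑ w ∈ bigVerts F, F.degree w := by
    rw [bigVerts, Finset.sum_biUnion (compFin_disjoint F _)]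
    exact Finset.sum_congr rfl (fun c _ => comp_edges F c)
  have h2 : ∑ w ∈ bigVerts F, F.degree w = ∑ w : W, F.degree w :=
    Finset.sum_subset (Finset.subset_univ _)
      (fun w _ hw => degree_eq_zero_of_notMem_bigVerts F w hw)
  have h3 := sum_degrees_eq_twice_card_edges F
  rw [← coe_edgeFinset, Set.ncard_coe_finset]
  rw [← Finset.mul_sum] at h1
  omega

lemma comp_card_le (F : SimpleGraph W) (c : F.ConnectedComponent) :
    (compFin F c).card ≤ c.toSimpleGraph.edgeSet.ncard + 1 := by
  have := c.connected_toSimpleGraph.card_vert_le_card_edgeSet_add_one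
  rw [Nat.card_eq_fintype_card, Nat.card_coe_set_eq, card_comp] at this
  exact this

lemma bigVerts_card_le (F : SimpleGraph W) : (bigVerts F).card ≤ 2 * F.edgeSet.ncard := by
  rw [bigVerts_card, edges_eq_sum_bigComps, Finset.mul_sum]
  refine Finset.sum_le_sum ?_
  intro c hc
  have h1 := comp_card_le F c
  have h2 : 2 ≤ (compFin F c).card := (Finset.mem_filter.1 hc).2
  omega

lemma card_copy_le_prod (F : SimpleGraph W) (H : SimpleGraph V) :
    Fintype.card (Copy F H) ≤
      (Fintype.card V - (bigVerts F).card).descFactorial (Fintype.card W - (bigVerts F).card) *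
        ∏ c ∈ bigComps F, Fintype.card (Copy c.toSimpleGraph H) := by
  have hcount := card_copy_le_fiber F H
    (fun f => (fun c : ↥(bigComps F) => restrictComp f c.1)) (bigVerts F) (by
      intro f g hfg w hw
      rw [bigVerts, Finset.mem_biUnion] at hw
      obtain ⟨c, hc, hwc⟩ := hw
      rw [mem_compFin] at hwc
      have := congrFun hfg ⟨c, hc⟩
      have h2 := DFunLike.congr_fun this ⟨w, hwc⟩
      exact h2)
  refine hcount.trans (Nat.mul_le_mul_left _ ?_)
  refine (Finset.card_le_univ _).trans ?_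
  rw [Fintype.card_pi,
    ← Finset.prod_coe_sort (bigComps F) (fun c => Fintype.card (Copy c.toSimpleGraph H))]

lemma connected_count_natCard (n : ℕ) (H : SimpleGraph V) (q : ℝ) (hq0 : 0 ≤ q)
    (hH : ∀ K : H.Subgraph,
      1 ≤ ((⊤ : SimpleGraph (Fin n)).copyCount K.coe : ℝ) * q ^ K.coe.edgeSet.ncard)
    (D : ℕ) (hD : ∀ v, (H.neighborSet v).ncard ≤ D) (F : SimpleGraph W) (hF : F.Connected)
    (hk : 2 ≤ Nat.card W) :
    (Nat.card (Copy F H) : ℝ) ≤
      (n : ℝ) ^ Nat.card W * (4 * Real.exp 1 * D * q) ^ F.edgeSet.ncard := by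
  rw [Nat.card_eq_fintype_card] at hk ⊢
  rw [Nat.card_eq_fintype_card]
  exact connected_count' n H q hq0 hH D hD F hF hk

lemma natCard_comp (F : SimpleGraph W) (c : F.ConnectedComponent) :
    Nat.card c = (compFin F c).card := by
  rw [Nat.card_eq_fintype_card, card_comp]

lemma comp_count_le (n : ℕ) (H : SimpleGraph V) (q : ℝ)
    (hq0 : 0 ≤ q)
    (hH : ∀ K : H.Subgraph,
      1 ≤ ((⊤ : SimpleGraph (Fin n)).copyCount K.coe : ℝ) * q ^ K.coe.edgeSet.ncard)
    (D : ℕ) (hD : ∀ v, (H.neighborSet v).ncard ≤ D) (F : SimpleGraph W)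
    (c : F.ConnectedComponent) (h2 : 2 ≤ (compFin F c).card) :
    (Nat.card (Copy c.toSimpleGraph H) : ℝ) ≤ (n : ℝ) ^ ((compFin F c).card) *
          (4 * Real.exp 1 * D * q) ^ (c.toSimpleGraph.edgeSet.ncard) := by
  have h3 : 2 ≤ Nat.card c := by rw [natCard_comp]; exact h2
  have := connected_count_natCard n H q hq0 hH D hD c.toSimpleGraph c.connected_toSimpleGraph h3
  rw [natCard_comp] at this
  exact this

lemma prod_comp_le (n : ℕ) (H : SimpleGraph V) (q : ℝ)
    (hq0 : 0 ≤ q)
    (hH : ∀ K : H.Subgraph,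
      1 ≤ ((⊤ : SimpleGraph (Fin n)).copyCount K.coe : ℝ) * q ^ K.coe.edgeSet.ncard)
    (D : ℕ) (hD : ∀ v, (H.neighborSet v).ncard ≤ D) (F : SimpleGraph W) :
    (∏ c ∈ bigComps F, (Fintype.card (Copy c.toSimpleGraph H) : ℝ))
      ≤ (n : ℝ) ^ (bigVerts F).card * (4 * Real.exp 1 * D * q) ^ F.edgeSet.ncard := by
  have h1 : (∏ c ∈ bigComps F, (Fintype.card (Copy c.toSimpleGraph H) : ℝ))
      ≤ ∏ c ∈ bigComps F, ((n : ℝ) ^ ((compFin F c).card) *
          (4 * Real.exp 1 * D * q) ^ (c.toSimpleGraph.edgeSet.ncard)) :=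
    Finset.prod_le_prod (fun c _ => Nat.cast_nonneg _)
      (fun c hc => by
        rw [← Nat.card_eq_fintype_card]
        exact comp_count_le n H q hq0 hH D hD F c (Finset.mem_filter.1 hc).2)
  refine h1.trans (le_of_eq ?_)
  rw [Finset.prod_mul_distrib, Finset.prod_pow_eq_pow_sum, Finset.prod_pow_eq_pow_sum,
    bigVerts_card, ← edges_eq_sum_bigComps]

/-- purely numeric final step -/
lemma final_numeric (n v w k E : ℕ) (A P L : ℝ) (hA0 : 0 ≤ A) (hP0 : 0 ≤ P) (hvn : v ≤ n)
    (hwn : w ≤ n) (hkw : k ≤ w) (hkE : k ≤ 2 * E)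
    (hL : L ≤ ((v - k).descFactorial (w - k) : ℝ) * P)
    (hP : P ≤ (n : ℝ) ^ k * A ^ E) :
    L ≤ (n.descFactorial w : ℝ) * (A * Real.exp 2) ^ E := by
  have hk : ((v - k).descFactorial (w - k) : ℝ) ≤ ((n - k).descFactorial (w - k) : ℝ) := by
    exact_mod_cast Nat.descFactorial_le _ (by omega)
  have hexp : Real.exp (k : ℝ) ≤ Real.exp 2 ^ E := by
    rw [← Real.exp_nat_mul, Real.exp_le_exp]
    have : (k : ℝ) ≤ 2 * E := by exact_mod_cast hkE
    linarith
  calc L ≤ ((v - k).descFactorial (w - k) : ℝ) * P := hL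
    _ ≤ ((n - k).descFactorial (w - k) : ℝ) * ((n : ℝ) ^ k * A ^ E) :=
        mul_le_mul hk hP hP0 (by positivity)
    _ ≤ ((n - k).descFactorial (w - k) : ℝ) *
        ((Real.exp 2 ^ E * (n.descFactorial k : ℝ)) * A ^ E) := by
        refine mul_le_mul_of_nonneg_left ?_ (by positivity)
        refine mul_le_mul_of_nonneg_right ?_ (by positivity)
        refine (pow_le_exp_mul_descFactorial n k (hkw.trans hwn)).trans ?_
        exact mul_le_mul_of_nonneg_right hexp (by positivity)
    _ = (((n - k).descFactorial (w - k) * n.descFactorial k : ℕ) : ℝ)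
        * (A * Real.exp 2) ^ E := by
        push_cast
        rw [mul_pow A (Real.exp 2)]
        ring
    _ = (n.descFactorial w : ℝ) * (A * Real.exp 2) ^ E := by
        rw [Nat.descFactorial_mul_descFactorial hkw]

theorem labelled_bddDegree_le (n : ℕ) (H : SimpleGraph V) (hV : Fintype.card V ≤ n) (q : ℝ)
    (hq0 : 0 ≤ q)
    (hH : ∀ K : H.Subgraph,
      1 ≤ ((⊤ : SimpleGraph (Fin n)).copyCount K.coe : ℝ) * q ^ K.coe.edgeSet.ncard)
    (D : ℕ) (hD : ∀ v, (H.neighborSet v).ncard ≤ D) (F : SimpleGraph W) :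
    (H.labelledCopyCount F : ℝ)
      ≤ (n.descFactorial (Fintype.card W) : ℝ) *
        (4 * Real.exp 1 * D * q * Real.exp 2) ^ F.edgeSet.ncard := by
  by_cases hWn : Fintype.card W ≤ n
  swap
  · have h0 : H.labelledCopyCount F = 0 := by
      have := labelledCopyCount_le_descFactorial H F
      rw [Nat.descFactorial_eq_zero_iff_lt.2 (by omega)] at this
      omega
    rw [h0]
    simp only [Nat.cast_zero]
    positivity
  refine final_numeric n (Fintype.card V) (Fintype.card W) (bigVerts F).card F.edgeSet.ncard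
    (4 * Real.exp 1 * D * q) (∏ c ∈ bigComps F, (Fintype.card (Copy c.toSimpleGraph H) : ℝ))
    _ (by positivity) (Finset.prod_nonneg (fun v _ => by positivity)) hV hWn
    (Finset.card_le_univ _) (bigVerts_card_le F) ?_ (prod_comp_le n H q hq0 hH D hD F)
  have h1 : H.labelledCopyCount F = Fintype.card (Copy F H) := by
    rw [labelledCopyCount_eq_natCard, Nat.card_eq_fintype_card]
  rw [h1, ← Nat.cast_prod, ← Nat.cast_mul]
  exact Nat.cast_le.2 (card_copy_le_prod F H)

end Components

end Vale.Agent.Lib.P064
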