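import Vale.Agent.Lib.P064.Packing

/-!
Copies of a connected graph in a graph of maximum degree at most `D`:
a maximal family of disjoint copies is small by the packing bound and every copy meets it.
-/

open SimpleGraph Finset

namespace Vale.Agent.Lib.P064

section ConnCount

open scoped Classical

variable {V W : Type*} [Fintype V] [Fintype W]

lemma exists_maximal_family [Nonempty W] (F : SimpleGraph W) (H : SimpleGraph V) :
    ∃ M : Finset (Copy F H), (∀ f ∈ M, ∀ g ∈ M, ∀ a b, f a = g b → f = g) ∧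
      ∀ f : Copy F H, ∃ g ∈ M, ∃ a b, f a = g b := by
  set FF : Finset (Finset (Copy F H)) :=
    Finset.univ.filter (fun M => ∀ f ∈ M, ∀ g ∈ M, ∀ a b, f a = g b → f = g) with hFF
  have hne : FF.Nonempty := ⟨∅, by simp [hFF]⟩
  obtain ⟨M, hM, hmax⟩ := Finset.exists_max_image FF Finset.card hne
  rw [hFF, Finset.mem_filter] at hM
  refine ⟨M, hM.2, ?_⟩
  intro f
  by_contra hcon
  push Not at hcon
  have hfM : f ∉ M := by
    intro hf
    obtain ⟨w⟩ := ‹Nonempty W›
    exact hcon f hf w w rfl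
  have hins : insert f M ∈ FF := by
    rw [hFF, Finset.mem_filter]
    refine ⟨Finset.mem_univ _, ?_⟩
    intro g hg g' hg' a b hab
    rw [Finset.mem_insert] at hg hg'
    rcases hg with rfl | hg
    · rcases hg' with rfl | hg'
      · rfl
      · exact absurd hab (hcon g' hg' a b)
    · rcases hg' with rfl | hg'
      · exact absurd hab.symm (hcon g hg b a)
      · exact hM.2 g hg g' hg' a b hab
  have := hmax _ hins
  rw [Finset.card_insert_of_notMem hfM] at this
  omega

lemma connected_count (n : ℕ) (H : SimpleGraph V) (q : ℝ) (hq0 : 0 ≤ q)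
    (hH : ∀ K : H.Subgraph,
      1 ≤ ((⊤ : SimpleGraph (Fin n)).copyCount K.coe : ℝ) * q ^ K.coe.edgeSet.ncard)
    (D : ℕ) (hD : ∀ v, (H.neighborSet v).ncard ≤ D) (F : SimpleGraph W) (hF : F.Connected) :
    (Fintype.card (Copy F H) : ℝ) ≤
      Real.exp 1 * ((n : ℝ) ^ Fintype.card W * q ^ F.edgeSet.ncard) *
        ((Fintype.card W : ℝ) ^ 2 * (D : ℝ) ^ (Fintype.card W - 1)) := by
  have : Nonempty W := hF.nonempty
  obtain ⟨M, hM1, hM2⟩ := exists_maximal_family F H
  have hpack := packing_bound (ι := ↥M) n H q hq0 hH F (fun i => i.1) (by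
    intro i j a b hab
    exact Subtype.ext (hM1 i.1 i.2 j.1 j.2 a b hab))
  rw [Fintype.card_coe] at hpack
  have hcover : (Finset.univ : Finset (Copy F H)) ⊆
      M.biUnion (fun g => (Finset.univ : Finset W).biUnion (fun b =>
        (Finset.univ : Finset W).biUnion (fun a =>
          Finset.univ.filter (fun f : Copy F H => f a = g b)))) := by
    intro f _
    obtain ⟨g, hg, a, b, hab⟩ := hM2 f
    simp only [Finset.mem_biUnion, Finset.mem_univ, true_and, Finset.mem_filter]
    exact ⟨g, hg, b, a, hab⟩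
  have hcard : Fintype.card (Copy F H) ≤
      M.card * (Fintype.card W * (Fintype.card W * D ^ (Fintype.card W - 1))) := by
    rw [← Finset.card_univ]
    refine (Finset.card_le_card hcover).trans ?_
    refine Finset.card_biUnion_le_card_mul _ _ _ ?_
    intro g _
    rw [← Finset.card_univ (α := W)]
    refine Finset.card_biUnion_le_card_mul _ _ _ ?_
    intro b _
    refine Finset.card_biUnion_le_card_mul _ _ _ ?_
    intro a _
    rw [Finset.card_univ]
    exact card_copy_rooted_le F hF H D hD a (g b)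
  have hcardR : (Fintype.card (Copy F H) : ℝ) ≤
      (M.card : ℝ) * ((Fintype.card W : ℝ) ^ 2 * (D : ℝ) ^ (Fintype.card W - 1)) := by
    have : (Fintype.card (Copy F H) : ℝ) ≤
      ((M.card * (Fintype.card W * (Fintype.card W * D ^ (Fintype.card W - 1))) : ℕ) : ℝ) := by
      exact_mod_cast hcard
    refine this.trans (le_of_eq ?_)
    push_cast
    ring
  exact hcardR.trans (mul_le_mul_of_nonneg_right hpack (by positivity))

lemma sq_le_four_pow (k : ℕ) (hk : 1 ≤ k) : k ^ 2 ≤ 4 ^ (k - 1) := by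
  induction k, hk using Nat.le_induction with
  | base => norm_num
  | succ k hk ih =>
    have : k + 1 - 1 = (k - 1) + 1 := by omega
    rw [this, pow_succ 4]
    nlinarith

/-- simplified form for connected graphs with at least two vertices -/
lemma connected_count' (n : ℕ) (H : SimpleGraph V) (q : ℝ) (hq0 : 0 ≤ q)
    (hH : ∀ K : H.Subgraph,
      1 ≤ ((⊤ : SimpleGraph (Fin n)).copyCount K.coe : ℝ) * q ^ K.coe.edgeSet.ncard)
    (D : ℕ) (hD : ∀ v, (H.neighborSet v).ncard ≤ D) (F : SimpleGraph W) (hF : F.Connected)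
    (hk : 2 ≤ Fintype.card W) :
    (Fintype.card (Copy F H) : ℝ) ≤
      (n : ℝ) ^ Fintype.card W * (4 * Real.exp 1 * D * q) ^ F.edgeSet.ncard := by
  have h := connected_count n H q hq0 hH D hD F hF
  set k := Fintype.card W with hkdef
  set e := F.edgeSet.ncard with hedef
  have hke : k - 1 ≤ e := by
    have := hF.card_vert_le_card_edgeSet_add_one
    rw [Nat.card_eq_fintype_card, Nat.card_coe_set_eq] at this
    omega
  have hexp1 : (1 : ℝ) ≤ Real.exp 1 := by
    have := Real.add_one_le_exp (1 : ℝ); linarith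
  rcases Nat.eq_zero_or_pos D with hD0 | hDpos
  · rw [hD0] at h
    have : ((0 : ℕ) : ℝ) ^ (k - 1) = 0 := by
      rw [Nat.cast_zero]; exact zero_pow (by omega)
    rw [this, mul_zero, mul_zero] at h
    exact h.trans (by positivity)
  have hD1 : (1 : ℝ) ≤ D := by exact_mod_cast hDpos
  have hc : (1 : ℝ) ≤ 4 * Real.exp 1 * D := by nlinarith
  have h1 : Real.exp 1 * ((k : ℝ) ^ 2 * (D : ℝ) ^ (k - 1)) ≤ (4 * Real.exp 1 * D) ^ e := by
    have h2 : ((k : ℝ)) ^ 2 ≤ 4 ^ (k - 1) := by exact_mod_cast sq_le_four_pow k (by omega)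
    have h3 : Real.exp 1 ≤ Real.exp 1 ^ (k - 1) := by
      calc Real.exp 1 = Real.exp 1 ^ 1 := (pow_one _).symm
        _ ≤ Real.exp 1 ^ (k - 1) := pow_le_pow_right₀ hexp1 (by omega)
    calc Real.exp 1 * ((k : ℝ) ^ 2 * (D : ℝ) ^ (k - 1))
        ≤ Real.exp 1 ^ (k - 1) * (4 ^ (k - 1) * (D : ℝ) ^ (k - 1)) := by
          refine mul_le_mul h3 ?_ (by positivity) (by positivity)
          exact mul_le_mul_of_nonneg_right h2 (by positivity)
      _ = (4 * Real.exp 1 * D) ^ (k - 1) := by rw [mul_pow, mul_pow]; ring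
      _ ≤ (4 * Real.exp 1 * D) ^ e := pow_le_pow_right₀ hc hke
  calc (Fintype.card (Copy F H) : ℝ)
      ≤ Real.exp 1 * ((n : ℝ) ^ k * q ^ e) * ((k : ℝ) ^ 2 * (D : ℝ) ^ (k - 1)) := h
    _ = ((n : ℝ) ^ k * q ^ e) * (Real.exp 1 * ((k : ℝ) ^ 2 * (D : ℝ) ^ (k - 1))) := by ring
    _ ≤ ((n : ℝ) ^ k * q ^ e) * (4 * Real.exp 1 * D) ^ e :=
        mul_le_mul_of_nonneg_left h1 (by positivity)
    _ = (n : ℝ) ^ k * (4 * Real.exp 1 * D * q) ^ e := by
        rw [mul_pow (4 * Real.exp 1 * D) q]; ring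

end ConnCount

end Vale.Agent.Lib.P064
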