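import Mathlib

/-!
Counting lemmas for P064 (second Kahn-Kalai conjecture): labelled versus unlabelled copies,
copies of unions of stars, an averaging argument over bipartitions and a binomial tail estimate.
-/

open SimpleGraph Finset

namespace Vale.Agent.Lib.P064

section A


variable {V W : Type*} [Fintype V] [Fintype W]

omit [Fintype V] [Fintype W] in
/-- copies with a given image subgraph correspond to isomorphisms onto it -/
lemma card_fiber_toSubgraph (G : SimpleGraph V) (F : SimpleGraph W) (K : G.Subgraph)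
    (e0 : F ≃g K.coe) :
    Nat.card {f : Copy F G // f.toSubgraph = K} = Nat.card (F ≃g F) := by
  classical
  have h1 : ∀ e : F ≃g K.coe, (K.coeCopy.comp e.toCopy).toSubgraph = K := by
    intro e
    simp [Copy.toSubgraph, Subgraph.coeCopy, Copy.comp, Subgraph.map_comp]
  refine Nat.card_congr ?_
  refine Equiv.symm (Equiv.ofBijective (fun σ : F ≃g F => ⟨K.coeCopy.comp (e0.comp σ).toCopy, h1 _⟩) ⟨?_, ?_⟩)
  · intro σ τ h
    have h2 := congrArg Subtype.val h
    ext a
    have h3 := DFunLike.congr_fun h2 a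
    simp [Subgraph.coeCopy] at h3
    exact e0.injective (Subtype.ext h3)
  · rintro ⟨f, rfl⟩
    refine ⟨e0.symm.comp f.isoToSubgraph, ?_⟩
    apply Subtype.ext
    ext a
    simp [Subgraph.coeCopy, Copy.isoToSubgraph]
    rfl

/-- labelled copies = unlabelled copies times automorphisms -/
lemma labelledCopyCount_eq (G : SimpleGraph V) (F : SimpleGraph W) :
    G.labelledCopyCount F = G.copyCount F * Nat.card (F ≃g F) := by
  classical
  rw [copyCount_eq_card_image_copyToSubgraph, labelledCopyCount, ← Finset.card_univ,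
    Finset.card_eq_sum_card_image (Copy.toSubgraph (A := F) (B := G)) Finset.univ]
  rw [Finset.sum_const_nat (m := Nat.card (F ≃g F))]
  intro K hK
  obtain ⟨f, -, rfl⟩ := Finset.mem_image.1 hK
  rw [← card_fiber_toSubgraph G F f.toSubgraph f.isoToSubgraph, Nat.card_eq_fintype_card,
    Fintype.card_subtype]




lemma labelledCopyCount_eq_natCard (G : SimpleGraph V) (F : SimpleGraph W) :
    G.labelledCopyCount F = Nat.card (Copy F G) := by
  classical
  rw [labelledCopyCount, Nat.card_eq_fintype_card]

lemma labelledCopyCount_star_le (H : SimpleGraph V) [DecidableRel H.Adj] (t : ℕ) :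
    H.labelledCopyCount (starGraph (0 : Fin (t+1))) ≤ ∑ v : V, (H.degree v).descFactorial t := by
  classical
  rw [labelledCopyCount_eq_natCard]
  have : ∀ v : V, (H.degree v).descFactorial t = Fintype.card (Fin t ↪ H.neighborSet v) := by
    intro v
    rw [Fintype.card_embedding_eq, Fintype.card_fin, card_neighborSet_eq_degree]
  simp_rw [this]
  rw [← Fintype.card_sigma, ← Nat.card_eq_fintype_card]
  have hadj : ∀ (f : Copy (starGraph (0 : Fin (t+1))) H) (i : Fin t), H.Adj (f 0) (f i.succ) := by
    intro f i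
    exact f.toHom.map_adj (by simp [eq_comm])
  refine Nat.card_le_card_of_injective
    (fun f : Copy (starGraph (0 : Fin (t+1))) H =>
      (⟨f 0, ⟨fun i => ⟨f i.succ, hadj f i⟩, fun i j hij => by
        have := congrArg Subtype.val hij
        exact Fin.succ_injective _ (f.injective this)⟩⟩ : Σ v : V, (Fin t ↪ H.neighborSet v))) ?_
  intro f g hfg
  have h0 := congrArg Sigma.fst hfg
  have h1 := congrArg (fun x : Σ v : V, (Fin t ↪ H.neighborSet v) =>
    fun i => ((x.2 i : H.neighborSet x.1) : V)) hfg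
  ext a
  refine Fin.cases h0 (fun i => ?_) a
  exact congrFun h1 i


lemma labelledCopyCount_top (n : ℕ) (F : SimpleGraph W) :
    (⊤ : SimpleGraph (Fin n)).labelledCopyCount F = n.descFactorial (Fintype.card W) := by
  classical
  rw [labelledCopyCount_eq_natCard]
  conv_rhs => rw [← Fintype.card_fin n]
  rw [← Fintype.card_embedding_eq, ← Nat.card_eq_fintype_card]
  refine Nat.card_congr ⟨fun f => f.toEmbedding, fun e => ⟨⟨e, fun {a b} h => ?_⟩, e.injective⟩, ?_, ?_⟩
  · simpa using h.ne
  · intro f; ext; rfl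
  · intro e; ext; rfl

lemma labelledCopyCount_le_descFactorial (G : SimpleGraph V) (F : SimpleGraph W) :
    G.labelledCopyCount F ≤ (Fintype.card V).descFactorial (Fintype.card W) := by
  classical
  rw [labelledCopyCount_eq_natCard, ← Fintype.card_embedding_eq, ← Nat.card_eq_fintype_card]
  refine Nat.card_le_card_of_injective (fun f : Copy F G => f.toEmbedding) ?_
  intro f g h
  ext a
  exact congrArg (fun e : W ↪ V => e a) h

end A

section B


lemma card_image_le_of_factor {α β γ : Type*} [DecidableEq β] [DecidableEq γ] (s : Finset α)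
    (f : α → β) (g : α → γ) (h : ∀ a ∈ s, ∀ b ∈ s, g a = g b → f a = f b) :
    (s.image f).card ≤ (s.image g).card := by
  classical
  rcases s.eq_empty_or_nonempty with rfl | ⟨a0, _⟩
  · simp
  have : Nonempty α := ⟨a0⟩
  have hch : ∀ y ∈ s.image g, ∃ a ∈ s, g a = y := fun y hy => by
    obtain ⟨a, ha, rfl⟩ := Finset.mem_image.1 hy
    exact ⟨a, ha, rfl⟩
  choose! a ha1 ha2 using hch
  refine Finset.card_le_card_of_surjOn (fun y => f (a y)) ?_
  intro z hz
  obtain ⟨b, hb, rfl⟩ := Finset.mem_image.1 (Finset.mem_coe.1 hz)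
  have hy : g b ∈ s.image g := Finset.mem_image_of_mem g hb
  exact ⟨g b, Finset.mem_coe.2 hy, h _ (ha1 _ hy) _ hb (ha2 _ hy)⟩

lemma copyCount_le_choose_of_starSystem {W U : Type*} [Fintype W] [Fintype U]
    (F : SimpleGraph W) (G : SimpleGraph U) [DecidableRel G.Adj] (S : Finset W)
    (T : W → Finset W) (d : ℕ)
    (hT : ∀ v ∈ S, (T v).card = d)
    (hadj : ∀ a b, F.Adj a b ↔ (a ∈ S ∧ b ∈ T a) ∨ (b ∈ S ∧ a ∈ T b))
    (hcov : ∀ w, w ∈ S ∨ ∃ v ∈ S, w ∈ T v) :
    G.copyCount F ≤ (∑ c : U, (G.degree c).choose d).choose S.card := by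
  classical
  rw [copyCount_eq_card_image_copyToSubgraph]
  set g : Copy F G → Finset (Σ _ : U, Finset U) :=
    fun f => S.image (fun v => (⟨f v, (T v).image f⟩ : Σ _ : U, Finset U)) with hg
  have hverts : ∀ f : Copy F G, ∀ u, u ∈ f.toSubgraph.verts ↔ ∃ x ∈ g f, u = x.1 ∨ u ∈ x.2 := by
    intro f u
    simp only [Copy.toSubgraph, Subgraph.map_verts, Subgraph.verts_top, Set.image_univ,
      Set.mem_range, hg, Finset.mem_image]
    constructor
    · rintro ⟨w, rfl⟩
      rcases hcov w with hw | ⟨v, hv, hw⟩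
      · exact ⟨_, ⟨w, hw, rfl⟩, Or.inl rfl⟩
      · exact ⟨_, ⟨v, hv, rfl⟩, Or.inr (Finset.mem_image_of_mem _ hw)⟩
    · rintro ⟨x, ⟨v, hv, rfl⟩, h | h⟩
      · exact ⟨v, h.symm⟩
      · obtain ⟨w, -, hw⟩ := Finset.mem_image.1 h
        exact ⟨w, hw⟩
  have hAdj : ∀ f : Copy F G, ∀ a b, f.toSubgraph.Adj a b ↔
      ∃ x ∈ g f, (a = x.1 ∧ b ∈ x.2) ∨ (b = x.1 ∧ a ∈ x.2) := by
    intro f a b
    simp only [Copy.toSubgraph, Subgraph.map_adj, Relation.Map, Subgraph.top_adj, hg,
      Finset.mem_image]
    constructor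
    · rintro ⟨x, y, hxy, rfl, rfl⟩
      rcases (hadj x y).1 hxy with ⟨h1, h2⟩ | ⟨h1, h2⟩
      · exact ⟨_, ⟨x, h1, rfl⟩, Or.inl ⟨rfl, Finset.mem_image_of_mem _ h2⟩⟩
      · exact ⟨_, ⟨y, h1, rfl⟩, Or.inr ⟨rfl, Finset.mem_image_of_mem _ h2⟩⟩
    · rintro ⟨x, ⟨v, hv, rfl⟩, ⟨h1, h2⟩ | ⟨h1, h2⟩⟩
      · obtain ⟨w, hw, rfl⟩ := Finset.mem_image.1 h2
        exact ⟨v, w, (hadj v w).2 (Or.inl ⟨hv, hw⟩), h1.symm, rfl⟩
      · obtain ⟨w, hw, rfl⟩ := Finset.mem_image.1 h2
        exact ⟨w, v, (hadj w v).2 (Or.inr ⟨hv, hw⟩), rfl, h1.symm⟩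
  calc (Finset.univ.image (Copy.toSubgraph (A := F) (B := G))).card
      ≤ (Finset.univ.image g).card := by
        refine card_image_le_of_factor _ _ _ ?_
        intro f _ f' _ hff
        refine Subgraph.ext ?_ ?_
        · ext u
          rw [hverts, hverts, hff]
        · ext a b
          rw [hAdj, hAdj, hff]
    _ ≤ (Finset.powersetCard S.card ((Finset.univ : Finset U).sigma
          (fun c => Finset.powersetCard d (G.neighborFinset c)))).card := by
        refine Finset.card_le_card ?_
        intro x hx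
        obtain ⟨f, -, rfl⟩ := Finset.mem_image.1 hx
        rw [Finset.mem_powersetCard]
        constructor
        · intro y hy
          obtain ⟨v, hv, rfl⟩ := Finset.mem_image.1 hy
          simp only [Finset.mem_sigma, Finset.mem_univ, true_and, Finset.mem_powersetCard]
          constructor
          · intro u hu
            obtain ⟨w, hw, rfl⟩ := Finset.mem_image.1 hu
            rw [mem_neighborFinset]
            exact f.toHom.map_adj ((hadj v w).2 (Or.inl ⟨hv, hw⟩))
          · rw [Finset.card_image_of_injective _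
              (show Function.Injective (f : W → U) from f.injective), hT v hv]
        · refine Finset.card_image_of_injective _ ?_
          intro v w hvw
          exact f.injective (congrArg Sigma.fst hvw)
    _ = _ := by
        rw [Finset.card_powersetCard, Finset.card_sigma]
        simp

variable {V : Type*}

/-- union of stars centred at the vertices of `S`, the star at `v` having leaf set `T v` -/
def starUnion (H : SimpleGraph V) (S : Finset V) (T : V → Finset V)
    (hT : ∀ v ∈ S, ∀ w ∈ T v, H.Adj v w) : H.Subgraph where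
  verts := {u | u ∈ S ∨ ∃ v ∈ S, u ∈ T v}
  Adj a b := (a ∈ S ∧ b ∈ T a) ∨ (b ∈ S ∧ a ∈ T b)
  adj_sub := by
    rintro a b (⟨h1, h2⟩ | ⟨h1, h2⟩)
    · exact hT a h1 b h2
    · exact (hT b h1 a h2).symm
  edge_vert := by
    rintro a b (⟨h1, h2⟩ | ⟨h1, h2⟩)
    · exact Or.inl h1
    · exact Or.inr ⟨b, h1, h2⟩
  symm := ⟨by
    rintro a b (h | h)
    · exact Or.inr h
    · exact Or.inl h⟩

lemma starUnion_edge_card [DecidableEq V] (H : SimpleGraph V) (S : Finset V) (T : V → Finset V)
    (hT : ∀ v ∈ S, ∀ w ∈ T v, H.Adj v w) (A : Finset V) (hSA : S ⊆ A)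
    (hTA : ∀ v ∈ S, Disjoint (T v) A) (d : ℕ) (hd : ∀ v ∈ S, (T v).card = d) [Finite V] :
    S.card * d ≤ (starUnion H S T hT).coe.edgeSet.ncard := by
  classical
  set K := starUnion H S T hT with hK
  have h1 : K.coe.edgeSet.ncard = K.edgeSet.ncard := by
    rw [← Subgraph.image_coe_edgeSet_coe, Set.ncard_image_of_injective]
    exact Sym2.map.injective Subtype.val_injective
  rw [h1]
  have h2 : ((S.sigma T).image (fun x : Σ _ : V, V => s(x.1, x.2)) : Set (Sym2 V)) ⊆ K.edgeSet := by
    intro e he
    obtain ⟨x, hx, rfl⟩ := Finset.mem_image.1 (Finset.mem_coe.1 he)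
    rw [Finset.mem_sigma] at hx
    rw [Subgraph.mem_edgeSet]
    exact Or.inl hx
  have h3 : ((S.sigma T).image (fun x : Σ _ : V, V => s(x.1, x.2))).card = S.card * d := by
    rw [Finset.card_image_of_injOn, Finset.card_sigma, Finset.sum_const_nat hd]
    intro x hx y hy hxy
    rw [Finset.mem_coe, Finset.mem_sigma] at hx hy
    simp only [Sym2.eq_iff] at hxy
    rcases hxy with ⟨h1, h2⟩ | ⟨h1, h2⟩
    · exact Sigma.ext h1 (heq_of_eq h2)
    · exfalso
      have : x.1 ∈ T y.1 := h1 ▸ hy.2
      exact (Finset.disjoint_left.1 (hTA y.1 hy.1)) this (hSA hx.1)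
  rw [← h3, ← Set.ncard_coe_finset]
  exact Set.ncard_le_ncard h2 (Set.toFinite _)


lemma copyCount_top_starUnion_le [Fintype V] (n : ℕ) (H : SimpleGraph V) (S : Finset V)
    (T : V → Finset V) (hT : ∀ v ∈ S, ∀ w ∈ T v, H.Adj v w) (d : ℕ)
    (hd : ∀ v ∈ S, (T v).card = d) :
    (⊤ : SimpleGraph (Fin n)).copyCount (starUnion H S T hT).coe
      ≤ (n * (n - 1).choose d).choose S.card := by
  classical
  set K := starUnion H S T hT with hK
  have hmemS : ∀ v ∈ S, v ∈ K.verts := fun v hv => Or.inl hv
  have hmemT : ∀ v ∈ S, ∀ w ∈ T v, w ∈ K.verts := fun v hv w hw => Or.inr ⟨v, hv, hw⟩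
  set S' : Finset K.verts := Finset.univ.filter (fun x => (x : V) ∈ S) with hS'
  set T' : K.verts → Finset K.verts := fun x => Finset.univ.filter (fun y => (y : V) ∈ T x) with hT'
  have hcS : S'.card = S.card := by
    refine Finset.card_bij (fun x _ => (x : V)) ?_ ?_ ?_
    · intro x hx
      simpa [hS'] using hx
    · intro x _ y _ hxy
      exact Subtype.ext hxy
    · intro v hv
      exact ⟨⟨v, hmemS v hv⟩, by simp [hS', hv], rfl⟩
  have hcT : ∀ x ∈ S', (T' x).card = d := by
    intro x hx
    have hxS : (x : V) ∈ S := by simpa [hS'] using hx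
    rw [← hd x hxS]
    refine Finset.card_bij (fun y _ => (y : V)) ?_ ?_ ?_
    · intro y hy
      simpa [hT'] using hy
    · intro y _ z _ hyz
      exact Subtype.ext hyz
    · intro w hw
      exact ⟨⟨w, hmemT x hxS w hw⟩, by simp [hT', hw], rfl⟩
  have := copyCount_le_choose_of_starSystem K.coe (⊤ : SimpleGraph (Fin n)) S' T' d hcT ?_ ?_
  · rw [hcS] at this
    simpa using this
  · intro a b
    simp only [Subgraph.coe_adj, hS', hT', Finset.mem_filter, Finset.mem_univ, true_and]
    rfl
  · intro w
    rcases w.2 with h | ⟨v, hv, h⟩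
    · left
      simpa [hS'] using h
    · right
      exact ⟨⟨v, hmemS v hv⟩, by simp [hS', hv], by simp [hT', h]⟩


end B

section C


variable {V : Type*} [Fintype V] [DecidableEq V]

lemma card_filter_sep (v : V) (T : Finset V) (hv : v ∉ T) :
    2 ^ Fintype.card V ≤ 2 ^ (T.card + 1) *
      ((Finset.univ : Finset V).powerset.filter (fun A => v ∈ A ∧ Disjoint T A)).card := by
  have hc : (insert v T).card = T.card + 1 := Finset.card_insert_of_notMem hv
  have hle : T.card + 1 ≤ Fintype.card V := by
    rw [← hc]; exact Finset.card_le_univ _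
  have h1 : ((Finset.univ \ insert v T).powerset).card ≤
      ((Finset.univ : Finset V).powerset.filter (fun A => v ∈ A ∧ Disjoint T A)).card := by
    refine Finset.card_le_card_of_injOn (fun B => insert v B) ?_ ?_
    · intro B hB
      rw [Finset.mem_coe, Finset.mem_powerset] at hB
      simp only [Finset.coe_filter, Finset.mem_powerset, Finset.subset_univ, true_and,
        Set.mem_ofPred_eq, Finset.mem_insert_self]
      rw [Finset.disjoint_insert_right]
      refine ⟨hv, ?_⟩
      rw [Finset.disjoint_left]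
      intro x hxT hxB
      have := hB hxB
      simp [hxT] at this
    · intro B hB C hC hBC
      rw [Finset.mem_coe, Finset.mem_powerset] at hB hC
      have hvB : v ∉ B := fun h => by have := hB h; simp at this
      have hvC : v ∉ C := fun h => by have := hC h; simp at this
      have := congrArg (fun X => X.erase v) hBC
      simpa [Finset.erase_insert hvB, Finset.erase_insert hvC] using this
  rw [Finset.card_powerset, Finset.card_sdiff_of_subset (Finset.subset_univ _), hc,
    Finset.card_univ] at h1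
  calc 2 ^ Fintype.card V = 2 ^ (T.card + 1) * 2 ^ (Fintype.card V - (T.card + 1)) := by
        rw [← pow_add, Nat.add_sub_cancel' hle]
    _ ≤ _ := Nat.mul_le_mul_left _ h1

lemma exists_bipartition (H : SimpleGraph V) [DecidableRel H.Adj] (t : ℕ) :
    ∃ A : Finset V, ∑ v : V, (H.degree v).choose t ≤
      2 ^ (t + 1) * ∑ v ∈ A, ((H.neighborFinset v \ A).card).choose t := by
  set P : Finset (Σ _ : V, Finset V) :=
    (Finset.univ : Finset V).sigma (fun v => Finset.powersetCard t (H.neighborFinset v)) with hP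
  have hPcard : P.card = ∑ v : V, (H.degree v).choose t := by
    rw [hP, Finset.card_sigma]
    simp
  have hA : ∀ A : Finset V, ∑ v ∈ A, ((H.neighborFinset v \ A).card).choose t =
      (P.filter (fun x => x.1 ∈ A ∧ Disjoint x.2 A)).card := by
    intro A
    have : P.filter (fun x => x.1 ∈ A ∧ Disjoint x.2 A) =
        A.sigma (fun v => Finset.powersetCard t (H.neighborFinset v \ A)) := by
      ext x
      simp only [hP, Finset.mem_filter, Finset.mem_sigma, Finset.mem_univ, true_and,
        Finset.mem_powersetCard, Finset.subset_sdiff]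
      tauto
    rw [this, Finset.card_sigma]
    simp
  have key : ∑ _A ∈ (Finset.univ : Finset V).powerset, P.card ≤
      ∑ A ∈ (Finset.univ : Finset V).powerset,
        2 ^ (t + 1) * ∑ v ∈ A, ((H.neighborFinset v \ A).card).choose t := by
    simp_rw [hA, Finset.card_filter]
    rw [← Finset.mul_sum, Finset.sum_comm, Finset.mul_sum, Finset.sum_const, Finset.card_powerset,
      Finset.card_univ, smul_eq_mul, mul_comm, ← smul_eq_mul, ← Finset.sum_const]
    refine Finset.sum_le_sum ?_
    intro x hx
    rw [hP, Finset.mem_sigma, Finset.mem_powersetCard] at hx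
    have hv : x.1 ∉ x.2 := fun h => by
      have := hx.2.1 h
      simp at this
    have := card_filter_sep x.1 x.2 hv
    rw [hx.2.2, Finset.card_filter] at this
    exact this
  obtain ⟨A, -, hA'⟩ := Finset.exists_le_of_sum_le ⟨∅, by simp⟩ key
  exact ⟨A, hPcard ▸ hA'⟩


end C

section D


lemma choose_mul_pow_le (a b : ℕ) (hab : a ≤ b) (t : ℕ) :
    a.choose t * b ^ t ≤ b.choose t * a ^ t := by
  induction t with
  | zero => simp
  | succ t ih =>
    have h1 : (a - t) * b ≤ (b - t) * a := by
      rcases le_total t a with h | h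
      · obtain ⟨c, rfl⟩ := Nat.exists_eq_add_of_le h
        obtain ⟨e, rfl⟩ := Nat.exists_eq_add_of_le hab
        have e1 : t + c - t = c := by omega
        have e2 : t + c + e - t = c + e := by omega
        rw [e1, e2]
        nlinarith
      · simp [Nat.sub_eq_zero_of_le h]
    refine Nat.le_of_mul_le_mul_right (c := t + 1) ?_ (Nat.succ_pos t)
    calc a.choose (t + 1) * b ^ (t + 1) * (t + 1)
        = (a.choose (t + 1) * (t + 1)) * b ^ (t + 1) := by ring
      _ = (a.choose t * (a - t)) * b ^ (t + 1) := by rw [Nat.choose_succ_right_eq]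
      _ = (a.choose t * b ^ t) * ((a - t) * b) := by ring
      _ ≤ (b.choose t * a ^ t) * ((b - t) * a) := Nat.mul_le_mul ih h1
      _ = (b.choose t * (b - t)) * a ^ (t + 1) := by ring
      _ = (b.choose (t + 1) * (t + 1)) * a ^ (t + 1) := by rw [Nat.choose_succ_right_eq]
      _ = b.choose (t + 1) * a ^ (t + 1) * (t + 1) := by ring

lemma m_le_of_choose (M m : ℕ) (y : ℝ) (hy : 0 ≤ y) (hm : 1 ≤ m)
    (h : 1 ≤ (M.choose m : ℝ) * y ^ m) : (m : ℝ) ≤ Real.exp 1 * (M * y) := by
  have hfac : (0 : ℝ) < (m.factorial : ℝ) := by exact_mod_cast Nat.factorial_pos m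
  have h1 : (M.choose m : ℝ) ≤ (M : ℝ) ^ m / m.factorial := Nat.choose_le_pow_div m M
  have h2 : (m.factorial : ℝ) ≤ ((M : ℝ) * y) ^ m := by
    have : 1 ≤ (M : ℝ) ^ m / m.factorial * y ^ m :=
      h.trans (mul_le_mul_of_nonneg_right h1 (pow_nonneg hy m))
    rw [div_mul_eq_mul_div, le_div_iff₀ hfac, one_mul, ← mul_pow] at this
    exact this
  have h3 : (m : ℝ) ^ m / m.factorial ≤ Real.exp m :=
    Real.pow_div_factorial_le_exp m (Nat.cast_nonneg m) m
  rw [div_le_iff₀ hfac] at h3
  have h4 : (m : ℝ) ^ m ≤ (Real.exp 1 * (M * y)) ^ m := by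
    calc (m : ℝ) ^ m ≤ Real.exp m * m.factorial := h3
      _ ≤ Real.exp m * ((M : ℝ) * y) ^ m := mul_le_mul_of_nonneg_left h2 (Real.exp_pos _).le
      _ = (Real.exp 1 * (M * y)) ^ m := by
        rw [mul_pow (Real.exp 1), ← Real.exp_nat_mul, mul_one]
  exact le_of_pow_le_pow_left₀ (by omega) (by positivity) h4

lemma sum_choose_mul_choose (N t : ℕ) (x : ℝ) :
    ∑ d ∈ range (N + 1), (N.choose d : ℝ) * (d.choose t) * x ^ d
      = N.choose t * x ^ t * (1 + x) ^ (N - t) := by
  rcases lt_or_ge N t with h | h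
  · rw [Nat.choose_eq_zero_of_lt h]
    simp only [Nat.cast_zero, zero_mul]
    refine Finset.sum_eq_zero ?_
    intro d hd
    rw [Finset.mem_range] at hd
    rw [Nat.choose_eq_zero_of_lt (by omega : d < t)]
    simp
  · rw [Finset.range_eq_Ico, ← Finset.sum_Ico_consecutive _ (Nat.zero_le t) (by omega : t ≤ N + 1)]
    have h0 : ∑ d ∈ Ico 0 t, (N.choose d : ℝ) * (d.choose t) * x ^ d = 0 := by
      refine Finset.sum_eq_zero ?_
      intro d hd
      rw [Finset.mem_Ico] at hd
      rw [Nat.choose_eq_zero_of_lt hd.2]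
      simp
    rw [h0, zero_add, Finset.sum_Ico_eq_sum_range, add_comm 1 x, add_pow, Finset.mul_sum]
    have e : N + 1 - t = N - t + 1 := by omega
    rw [e]
    refine Finset.sum_congr rfl ?_
    intro j _
    have := Nat.choose_mul (n := N) (k := t + j) (s := t) (by omega)
    have e2 : t + j - t = j := by omega
    rw [e2] at this
    have this' : (N.choose (t + j) : ℝ) * ((t + j).choose t) = N.choose t * (N - t).choose j := by
      exact_mod_cast this
    rw [this']
    simp only [one_pow, mul_one]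
    ring


lemma analytic_bound {V : Type*} (A : Finset V) (δ : V → ℕ) (n t : ℕ) (q : ℝ) (hq0 : 0 ≤ q)
    (ht : 1 ≤ t) (hA : A.card ≤ n) (hδ : ∀ v ∈ A, δ v ≤ n - 1)
    (hm : ∀ d, ((A.filter (fun v => d ≤ δ v)).card : ℝ)
      ≤ Real.exp 1 * ((n * (n - 1).choose d : ℕ) * q ^ d)) :
    (∑ v ∈ A, ((δ v).choose t : ℝ))
      ≤ (1 + Real.exp 1) * (n * (n - 1).choose t * (Real.exp 1 * q) ^ t) := by
  classical
  set E := Real.exp 1 with hE
  have hEpos : 0 < E := Real.exp_pos 1
  set N := n - 1 with hN
  set x := E * q with hx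
  have hx0 : 0 ≤ x := mul_nonneg hEpos.le hq0
  set D := x * N with hD
  -- low part
  have hlow : ∑ v ∈ A.filter (fun v => (δ v : ℝ) ≤ D), ((δ v).choose t : ℝ)
      ≤ n * (N.choose t * x ^ t) := by
    have hterm : ∀ v ∈ A.filter (fun v => (δ v : ℝ) ≤ D), ((δ v).choose t : ℝ) ≤ N.choose t * x ^ t := by
      intro v hv
      rw [Finset.mem_filter] at hv
      rcases Nat.eq_zero_or_pos N with h0 | hpos
      · have : δ v = 0 := by have := hδ v hv.1; omega
        rw [this, Nat.choose_eq_zero_of_lt (by omega : 0 < t)]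
        simp only [Nat.cast_zero]
        positivity
      · have h1 := choose_mul_pow_le (δ v) N (hδ v hv.1) t
        have h1' : ((δ v).choose t : ℝ) * (N : ℝ) ^ t ≤ N.choose t * (δ v : ℝ) ^ t := by
          exact_mod_cast h1
        have h2 : (δ v : ℝ) ^ t ≤ (x * N) ^ t := pow_le_pow_left₀ (Nat.cast_nonneg _) hv.2 t
        have hNpos : (0 : ℝ) < (N : ℝ) ^ t := by positivity
        have h3 : ((δ v).choose t : ℝ) * (N : ℝ) ^ t ≤ (N.choose t * x ^ t) * (N : ℝ) ^ t := by
          calc ((δ v).choose t : ℝ) * (N : ℝ) ^ t ≤ N.choose t * (δ v : ℝ) ^ t := h1'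
            _ ≤ N.choose t * (x * N) ^ t := mul_le_mul_of_nonneg_left h2 (Nat.cast_nonneg _)
            _ = (N.choose t * x ^ t) * (N : ℝ) ^ t := by rw [mul_pow]; ring
        exact le_of_mul_le_mul_right h3 hNpos
    calc ∑ v ∈ A.filter (fun v => (δ v : ℝ) ≤ D), ((δ v).choose t : ℝ)
        ≤ ∑ _v ∈ A.filter (fun v => (δ v : ℝ) ≤ D), ((N.choose t : ℝ) * x ^ t) :=
          Finset.sum_le_sum hterm
      _ = ((A.filter (fun v => (δ v : ℝ) ≤ D)).card : ℝ) * (N.choose t * x ^ t) := by
          rw [Finset.sum_const, nsmul_eq_mul]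
      _ ≤ n * (N.choose t * x ^ t) := by
          refine mul_le_mul_of_nonneg_right ?_ (by positivity)
          exact_mod_cast (Finset.card_filter_le _ _).trans hA
  -- high part
  have hhigh : ∑ v ∈ A.filter (fun v => ¬ (δ v : ℝ) ≤ D), ((δ v).choose t : ℝ)
      ≤ E * (n * (N.choose t * x ^ t)) := by
    have hmaps : ∀ v ∈ A.filter (fun v => ¬ (δ v : ℝ) ≤ D), δ v ∈ range (N + 1) := by
      intro v hv
      rw [Finset.mem_filter] at hv
      rw [Finset.mem_range]
      have := hδ v hv.1
      omega
    rw [← Finset.sum_fiberwise_of_maps_to hmaps]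
    have hinner : ∀ d ∈ range (N + 1),
        ∑ v ∈ (A.filter (fun v => ¬ (δ v : ℝ) ≤ D)).filter (fun v => δ v = d), ((δ v).choose t : ℝ)
        ≤ (E * n * Real.exp (-D)) * ((N.choose d : ℝ) * (d.choose t) * x ^ d) := by
      intro d _
      rcases ((A.filter (fun v => ¬ (δ v : ℝ) ≤ D)).filter (fun v => δ v = d)).eq_empty_or_nonempty
        with hemp | ⟨v0, hv0⟩
      · rw [hemp, Finset.sum_empty]
        positivity
      · rw [Finset.mem_filter, Finset.mem_filter] at hv0
        have hdD : D < d := by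
          have := hv0.1.2
          rw [hv0.2] at this
          exact not_le.1 this
        have hsum : ∑ v ∈ (A.filter (fun v => ¬ (δ v : ℝ) ≤ D)).filter (fun v => δ v = d),
            ((δ v).choose t : ℝ)
            = (((A.filter (fun v => ¬ (δ v : ℝ) ≤ D)).filter (fun v => δ v = d)).card : ℝ)
              * (d.choose t) := by
          rw [← nsmul_eq_mul, ← Finset.sum_const]
          refine Finset.sum_congr rfl ?_
          intro v hv
          rw [Finset.mem_filter] at hv
          rw [hv.2]
        rw [hsum]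
        have hcard : (((A.filter (fun v => ¬ (δ v : ℝ) ≤ D)).filter (fun v => δ v = d)).card : ℝ)
            ≤ E * ((n * N.choose d : ℕ) * q ^ d) := by
          refine le_trans ?_ (hm d)
          have : ((A.filter (fun v => ¬ (δ v : ℝ) ≤ D)).filter (fun v => δ v = d))
              ⊆ A.filter (fun v => d ≤ δ v) := by
            intro v hv
            rw [Finset.mem_filter, Finset.mem_filter] at hv
            rw [Finset.mem_filter]
            exact ⟨hv.1.1, hv.2.ge⟩
          exact_mod_cast Finset.card_le_card this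
        have hexp : 1 ≤ Real.exp (d - D) := by
          rw [Real.one_le_exp_iff]
          linarith
        have hxd : x ^ d = q ^ d * Real.exp d := by
          rw [hx, mul_pow, hE, ← Real.exp_nat_mul, mul_one, mul_comm]
        calc (((A.filter (fun v => ¬ (δ v : ℝ) ≤ D)).filter (fun v => δ v = d)).card : ℝ)
              * (d.choose t)
            ≤ (E * ((n * N.choose d : ℕ) * q ^ d)) * (d.choose t) :=
              mul_le_mul_of_nonneg_right hcard (Nat.cast_nonneg _)
          _ = (E * ((n * N.choose d : ℕ) * q ^ d)) * (d.choose t) * 1 := by ring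
          _ ≤ (E * ((n * N.choose d : ℕ) * q ^ d)) * (d.choose t) * Real.exp (d - D) := by
              refine mul_le_mul_of_nonneg_left hexp ?_
              positivity
          _ = (E * n * Real.exp (-D)) * ((N.choose d : ℝ) * (d.choose t) * x ^ d) := by
              rw [hxd, sub_eq_add_neg, Real.exp_add]
              push_cast
              ring
    refine (Finset.sum_le_sum hinner).trans ?_
    rw [← Finset.mul_sum, sum_choose_mul_choose]
    have h1 : (1 + x) ^ (N - t) ≤ Real.exp D := by
      calc (1 + x) ^ (N - t) ≤ (1 + x) ^ N :=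
            pow_le_pow_right₀ (by linarith) (Nat.sub_le _ _)
        _ ≤ (Real.exp x) ^ N := by
            refine pow_le_pow_left₀ (by linarith) ?_ N
            have := Real.add_one_le_exp x
            linarith
        _ = Real.exp D := by
            rw [← Real.exp_nat_mul, hD, mul_comm]
    calc E * n * Real.exp (-D) * (N.choose t * x ^ t * (1 + x) ^ (N - t))
        ≤ E * n * Real.exp (-D) * (N.choose t * x ^ t * Real.exp D) := by
          refine mul_le_mul_of_nonneg_left ?_ (by positivity)
          exact mul_le_mul_of_nonneg_left h1 (by positivity)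
      _ = E * (n * (N.choose t * x ^ t)) * (Real.exp (-D) * Real.exp D) := by ring
      _ = E * (n * (N.choose t * x ^ t)) := by
          rw [← Real.exp_add]; simp
  rw [← Finset.sum_filter_add_sum_filter_not A (fun v => (δ v : ℝ) ≤ D)]
  calc _ ≤ n * (N.choose t * x ^ t) + E * (n * (N.choose t * x ^ t)) := add_le_add hlow hhigh
    _ = (1 + E) * (n * N.choose t * x ^ t) := by ring


end D

end Vale.Agent.Lib.P064
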