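import Mathlib

/-!
P064 (second Kahn-Kalai conjecture): the expected number of copies of a graph in G(n,p),
the thresholds p_E and tilde p_E, and star forests.
-/

namespace Vale.Agent.Lib.P064

/-- Expected number of copies of `F` in the binomial random graph `G(n,p)` on the vertex set
`Fin n`: the graph `G` has probability `p ^ e(G) * (1 - p) ^ (C(n,2) - e(G))`, and
`G.copyCount F` is the number of subgraphs of `G` isomorphic to `F`. -/
noncomputable def expCopies (n : ℕ) (p : ℝ) {W : Type*} (F : SimpleGraph W) : ℝ :=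
  ∑ G : SimpleGraph (Fin n),
    p ^ G.edgeSet.ncard * (1 - p) ^ (n.choose 2 - G.edgeSet.ncard) * (G.copyCount F : ℝ)

/-- The subgraph expectation threshold `p_E(n,H)`. -/
noncomputable def pE (n : ℕ) {V : Type*} (H : SimpleGraph V) : ℝ :=
  sInf {p : ℝ | 0 ≤ p ∧ p ≤ 1 ∧ ∀ K : H.Subgraph, 1 / 2 ≤ expCopies n p K.coe}

/-- The modified threshold `tilde p_E(n,H)`. -/
noncomputable def pEtilde (n : ℕ) {V : Type*} [Fintype V] (H : SimpleGraph V) : ℝ :=
  sInf {p : ℝ | 0 ≤ p ∧ p ≤ 1 ∧
    ∀ K : H.Subgraph, (H.copyCount K.coe : ℝ) / 2 ≤ expCopies n p K.coe}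

/-- A star forest: there is a set `C` of centres such that every edge joins a centre to a
non-centre and every non-centre has at most one neighbour. -/
def IsStarForest {W : Type*} (F : SimpleGraph W) : Prop :=
  ∃ C : Set W, (∀ a b, F.Adj a b → (a ∈ C ↔ b ∉ C)) ∧
    ∀ w, w ∉ C → ∀ a b, F.Adj w a → F.Adj w b → a = b

end Vale.Agent.Lib.P064
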