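import Mathlib

/-!
P064: the probability that G(n,p) contains a copy of H, and the threshold p_c(n,H).
-/

namespace Vale.Agent.Lib.P064

open Classical in
/-- The probability that the binomial random graph `G(n,p)` on the vertex set `Fin n` contains at
least one copy of `H`: the graph `G` has probability `p ^ e(G) * (1 - p) ^ (C(n,2) - e(G))`. -/
noncomputable def probContains (n : ℕ) (p : ℝ) {V : Type*} (H : SimpleGraph V) : ℝ :=
  ∑ G : SimpleGraph (Fin n),
    p ^ G.edgeSet.ncard * (1 - p) ^ (n.choose 2 - G.edgeSet.ncard) *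
      (if 0 < G.copyCount H then 1 else 0)

/-- The threshold `p_c(n,H)`. -/
noncomputable def pc (n : ℕ) {V : Type*} (H : SimpleGraph V) : ℝ :=
  sInf {p : ℝ | 0 ≤ p ∧ p ≤ 1 ∧ 1 / 2 ≤ probContains n p H}

end Vale.Agent.Lib.P064
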