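import Vale.Agent.Lib.P064.Rooted
import Vale.Agent.Lib.P064.Blocks

/-!
Packing bound: vertex-disjoint copies of a graph `F` inside `H` form a subgraph with many
automorphisms, so there are at most `e * n^{v(F)} q^{e(F)}` of them when all subgraphs of `H` have
expected count at least one at density `q`.
-/

open SimpleGraph Finset

namespace Vale.Agent.Lib.P064

/-- disjoint union of copies of `F` indexed by `ι` -/
def mulGraph (ι : Type*) {W : Type*} (F : SimpleGraph W) : SimpleGraph (ι × W) where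
  Adj x y := x.1 = y.1 ∧ F.Adj x.2 y.2
  symm := ⟨fun _ _ h => ⟨h.1.symm, h.2.symm⟩⟩
  loopless := ⟨fun _ h => F.loopless.irrefl _ h.2⟩

lemma mulGraph_adj {ι W : Type*} (F : SimpleGraph W) (x y : ι × W) :
    (mulGraph ι F).Adj x y ↔ x.1 = y.1 ∧ F.Adj x.2 y.2 := Iff.rfl

section Packing

open scoped Classical

variable {V W ι : Type*} [Fintype V] [Fintype W] [Fintype ι]

lemma mulGraph_degree (F : SimpleGraph W) (x : ι × W) :
    (mulGraph ι F).degree x = F.degree x.2 := by
  rw [← card_neighborFinset_eq_degree, ← card_neighborFinset_eq_degree]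
  symm
  refine Finset.card_bij (fun b _ => (x.1, b)) ?_ ?_ ?_
  · intro b hb
    rw [mem_neighborFinset] at hb ⊢
    exact (mulGraph_adj F _ _).2 ⟨rfl, hb⟩
  · intro a _ b _ h
    exact (Prod.ext_iff.1 h).2
  · intro y hy
    rw [mem_neighborFinset, mulGraph_adj] at hy
    refine ⟨y.2, ?_, ?_⟩
    · rw [mem_neighborFinset]; exact hy.2
    · exact Prod.ext hy.1 rfl

lemma mulGraph_edge_ncard (F : SimpleGraph W) :
    (mulGraph ι F).edgeSet.ncard = Fintype.card ι * F.edgeSet.ncard := by
  have h1 := sum_degrees_eq_twice_card_edges (mulGraph ι F)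
  have h2 := sum_degrees_eq_twice_card_edges F
  rw [← coe_edgeFinset, Set.ncard_coe_finset, ← coe_edgeFinset, Set.ncard_coe_finset]
  have h3 : ∑ x : ι × W, (mulGraph ι F).degree x = Fintype.card ι * ∑ a : W, F.degree a := by
    rw [Fintype.sum_prod_type]
    have : ∀ i : ι, ∑ a : W, (mulGraph ι F).degree (i, a) = ∑ a : W, F.degree a :=
      fun i => Finset.sum_congr rfl (fun a _ => mulGraph_degree F (i, a))
    rw [Finset.sum_congr rfl (fun i _ => this i), Finset.sum_const, Finset.card_univ, smul_eq_mul]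
  rw [h3, h2] at h1
  have : 2 * (Fintype.card ι * #F.edgeFinset) = 2 * #(mulGraph ι F).edgeFinset := by
    rw [← h1]; ring
  omega

lemma factorial_le_card_aut [Nonempty W] (F : SimpleGraph W) :
    (Fintype.card ι).factorial ≤ Nat.card (mulGraph ι F ≃g mulGraph ι F) := by
  have hfin : Finite (mulGraph ι F ≃g mulGraph ι F) :=
    Finite.of_injective (fun e : mulGraph ι F ≃g mulGraph ι F => (e : ι × W → ι × W))
      DFunLike.coe_injective
  rw [← Fintype.card_perm, ← Nat.card_eq_fintype_card]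
  refine Nat.card_le_card_of_injective
    (fun σ : Equiv.Perm ι => (⟨Equiv.prodCongr σ (Equiv.refl W), ?_⟩ :
      mulGraph ι F ≃g mulGraph ι F)) ?_
  · intro a b
    simp [mulGraph_adj]
  · intro σ τ h
    ext i
    obtain ⟨w⟩ := ‹Nonempty W›
    have := DFunLike.congr_fun h (i, w)
    exact (Prod.ext_iff.1 this).1

/-- the copy of the disjoint union given by disjoint copies -/
def unionCopy {F : SimpleGraph W} {H : SimpleGraph V} (g : ι → Copy F H)
    (hdisj : ∀ i j a b, g i a = g j b → i = j) : Copy (mulGraph ι F) H :=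
  ⟨⟨fun x => g x.1 x.2, fun {x y} h => by
    rw [mulGraph_adj] at h
    have h1 : x.1 = y.1 := h.1
    show H.Adj (g x.1 x.2) (g y.1 y.2)
    rw [← h1]
    exact (g x.1).toHom.map_adj h.2⟩, fun x y h => by
    have h' : g x.1 x.2 = g y.1 y.2 := h
    have h1 : x.1 = y.1 := hdisj _ _ _ _ h'
    rw [← h1] at h'
    exact Prod.ext h1 ((g x.1).injective h')⟩

lemma packing_factorial [Nonempty W] (n : ℕ) (H : SimpleGraph V) (q : ℝ) (hq0 : 0 ≤ q)
    (hH : ∀ K : H.Subgraph,
      1 ≤ ((⊤ : SimpleGraph (Fin n)).copyCount K.coe : ℝ) * q ^ K.coe.edgeSet.ncard)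
    (F : SimpleGraph W) (g : ι → Copy F H) (hdisj : ∀ i j a b, g i a = g j b → i = j) :
    ((Fintype.card ι).factorial : ℝ)
      ≤ ((n : ℝ) ^ Fintype.card W * q ^ F.edgeSet.ncard) ^ Fintype.card ι := by
  set c := unionCopy g hdisj with hc
  set K := c.toSubgraph with hK
  have e : mulGraph ι F ≃g K.coe := c.isoToSubgraph
  have hE : K.coe.edgeSet.ncard = Fintype.card ι * F.edgeSet.ncard := by
    rw [← mulGraph_edge_ncard, ← Nat.card_coe_set_eq, ← Nat.card_coe_set_eq]
    exact (Nat.card_congr e.mapEdgeSet).symm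
  have hVc : Fintype.card K.verts = Fintype.card ι * Fintype.card W := by
    rw [← Fintype.card_prod]
    exact (Fintype.card_congr e.toEquiv).symm
  have hfin : Finite (K.coe ≃g K.coe) :=
    Finite.of_injective (fun e : K.coe ≃g K.coe => (e : K.verts → K.verts))
      DFunLike.coe_injective
  have haut : (Fintype.card ι).factorial ≤ Nat.card (K.coe ≃g K.coe) := by
    refine (factorial_le_card_aut (ι := ι) F).trans ?_
    refine Nat.card_le_card_of_injective
      (fun σ : mulGraph ι F ≃g mulGraph ι F => (e.symm.trans σ).trans e) ?_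
    intro σ τ h
    apply DFunLike.ext
    intro x
    have := DFunLike.congr_fun h (e x)
    simpa using this
  have hl := labelledCopyCount_eq (⊤ : SimpleGraph (Fin n)) K.coe
  rw [labelledCopyCount_top, hVc] at hl
  have h1 := hH K
  rw [hE] at h1
  have h2 : ((⊤ : SimpleGraph (Fin n)).copyCount K.coe : ℝ) * (Fintype.card ι).factorial
      ≤ (n : ℝ) ^ (Fintype.card ι * Fintype.card W) := by
    have : (⊤ : SimpleGraph (Fin n)).copyCount K.coe * (Fintype.card ι).factorial
        ≤ n ^ (Fintype.card ι * Fintype.card W) := by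
      calc _ ≤ (⊤ : SimpleGraph (Fin n)).copyCount K.coe * Nat.card (K.coe ≃g K.coe) :=
            Nat.mul_le_mul_left _ haut
        _ = n.descFactorial (Fintype.card ι * Fintype.card W) := hl.symm
        _ ≤ _ := Nat.descFactorial_le_pow _ _
    exact_mod_cast this
  have hqq : 0 ≤ q ^ (Fintype.card ι * F.edgeSet.ncard) := by positivity
  calc ((Fintype.card ι).factorial : ℝ)
      ≤ (((⊤ : SimpleGraph (Fin n)).copyCount K.coe : ℝ) * q ^ (Fintype.card ι * F.edgeSet.ncard))
          * (Fintype.card ι).factorial := by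
        exact le_mul_of_one_le_left (Nat.cast_nonneg _) h1
    _ = (((⊤ : SimpleGraph (Fin n)).copyCount K.coe : ℝ) * (Fintype.card ι).factorial)
          * q ^ (Fintype.card ι * F.edgeSet.ncard) := by ring
    _ ≤ (n : ℝ) ^ (Fintype.card ι * Fintype.card W) * q ^ (Fintype.card ι * F.edgeSet.ncard) :=
        mul_le_mul_of_nonneg_right h2 hqq
    _ = _ := by
        rw [mul_pow, ← pow_mul, ← pow_mul, mul_comm (Fintype.card W), mul_comm F.edgeSet.ncard]

/-- the number of pairwise disjoint copies is at most `e * n^{v(F)} q^{e(F)}` -/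
lemma packing_bound [Nonempty W] (n : ℕ) (H : SimpleGraph V) (q : ℝ) (hq0 : 0 ≤ q)
    (hH : ∀ K : H.Subgraph,
      1 ≤ ((⊤ : SimpleGraph (Fin n)).copyCount K.coe : ℝ) * q ^ K.coe.edgeSet.ncard)
    (F : SimpleGraph W) (g : ι → Copy F H) (hdisj : ∀ i j a b, g i a = g j b → i = j) :
    (Fintype.card ι : ℝ) ≤ Real.exp 1 * ((n : ℝ) ^ Fintype.card W * q ^ F.edgeSet.ncard) := by
  set ν := Fintype.card ι with hν
  set X := (n : ℝ) ^ Fintype.card W * q ^ F.edgeSet.ncard with hX
  have hX0 : 0 ≤ X := by positivity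
  rcases Nat.eq_zero_or_pos ν with h0 | hpos
  · rw [h0]; simp only [Nat.cast_zero]; positivity
  have h1 := packing_factorial n H q hq0 hH F g hdisj
  have hfac : (0 : ℝ) < (ν.factorial : ℝ) := by exact_mod_cast Nat.factorial_pos ν
  have h3 : (ν : ℝ) ^ ν / ν.factorial ≤ Real.exp ν :=
    Real.pow_div_factorial_le_exp ν (Nat.cast_nonneg ν) ν
  rw [div_le_iff₀ hfac] at h3
  have h4 : (ν : ℝ) ^ ν ≤ (Real.exp 1 * X) ^ ν := by
    calc (ν : ℝ) ^ ν ≤ Real.exp ν * ν.factorial := h3
      _ ≤ Real.exp ν * X ^ ν := mul_le_mul_of_nonneg_left h1 (Real.exp_pos _).le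
      _ = (Real.exp 1 * X) ^ ν := by
          rw [mul_pow (Real.exp 1) X, ← Real.exp_nat_mul, mul_one]
  exact le_of_pow_le_pow_left₀ (by omega) (by positivity) h4

end Packing

end Vale.Agent.Lib.P064
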