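import Vale.Agent.Lib.P064.Counting

/-!
Rooted counting: a homomorphism from a graph all of whose components meet a root set is determined,
up to `D` choices per remaining vertex, by its values on the root set.
-/

open SimpleGraph Finset

namespace Vale.Agent.Lib.P064

section Rooted

open scoped Classical

variable {V W : Type*} [Fintype V] [Fintype W]

lemma card_hom_ext_le (F : SimpleGraph W) (H : SimpleGraph V) (D : ℕ)
    (hD : ∀ v, (H.neighborSet v).ncard ≤ D) :
    ∀ (m : ℕ) (R : Finset W), (Rᶜ).card = m → (∀ w, ∃ r ∈ R, F.Reachable r w) → ∀ ψ : W → V,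
      (Finset.univ.filter (fun f : W → V =>
        (∀ a b, F.Adj a b → H.Adj (f a) (f b)) ∧ ∀ r ∈ R, f r = ψ r)).card ≤ D ^ m := by
  intro m
  induction m with
  | zero =>
    intro R hR _ ψ
    have hRu : ∀ w, w ∈ R := by
      intro w
      by_contra hw
      have : w ∈ Rᶜ := Finset.mem_compl.2 hw
      rw [Finset.card_eq_zero.1 hR] at this
      exact absurd this (Finset.notMem_empty _)
    rw [pow_zero, Finset.card_le_one]
    intro f hf g hg
    rw [Finset.mem_filter] at hf hg
    funext w
    rw [hf.2.2 w (hRu w), hg.2.2 w (hRu w)]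
  | succ m ih =>
    intro R hR hreach ψ
    have hne : (Rᶜ).Nonempty := by
      rw [← Finset.card_pos, hR]; exact Nat.succ_pos _
    obtain ⟨w0, hw0⟩ := hne
    rw [Finset.mem_compl] at hw0
    obtain ⟨r0, hr0, ⟨p⟩⟩ := hreach w0
    obtain ⟨d, -, hd1, hd2⟩ := p.exists_boundary_dart (R : Set W) (by simpa using hr0)
      (by simpa using hw0)
    have hd1' : d.fst ∈ R := by simpa using hd1
    have hd2' : d.snd ∉ R := by simpa using hd2
    set r := d.fst with hr
    set w := d.snd with hw
    have hadj : F.Adj r w := d.adj
    have hsub : (Finset.univ.filter (fun f : W → V =>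
        (∀ a b, F.Adj a b → H.Adj (f a) (f b)) ∧ ∀ r ∈ R, f r = ψ r)) ⊆
        (H.neighborFinset (ψ r)).biUnion (fun y => Finset.univ.filter (fun f : W → V =>
          (∀ a b, F.Adj a b → H.Adj (f a) (f b)) ∧
            ∀ r ∈ insert w R, f r = Function.update ψ w y r)) := by
      intro f hf
      rw [Finset.mem_filter] at hf
      rw [Finset.mem_biUnion]
      refine ⟨f w, ?_, ?_⟩
      · rw [mem_neighborFinset, ← hf.2.2 r hd1']
        exact hf.2.1 r w hadj
      · rw [Finset.mem_filter]
        refine ⟨Finset.mem_univ _, hf.2.1, ?_⟩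
        intro x hx
        rw [Finset.mem_insert] at hx
        by_cases hxw : x = w
        · subst hxw; simp
        · rw [Function.update_of_ne hxw]
          rcases hx with h | h
          · exact absurd h hxw
          · exact hf.2.2 x h
    have hcard : ((insert w R)ᶜ).card = m := by
      rw [Finset.card_compl, Finset.card_insert_of_notMem hd2']
      rw [Finset.card_compl] at hR
      omega
    have hreach' : ∀ x, ∃ r ∈ insert w R, F.Reachable r x := by
      intro x
      obtain ⟨r', hr', h⟩ := hreach x
      exact ⟨r', Finset.mem_insert_of_mem hr', h⟩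
    have hdeg : (H.neighborFinset (ψ r)).card ≤ D := by
      have := hD (ψ r)
      rwa [← coe_neighborFinset, Set.ncard_coe_finset] at this
    calc _ ≤ ((H.neighborFinset (ψ r)).biUnion (fun y => Finset.univ.filter (fun f : W → V =>
          (∀ a b, F.Adj a b → H.Adj (f a) (f b)) ∧
            ∀ r ∈ insert w R, f r = Function.update ψ w y r))).card := Finset.card_le_card hsub
      _ ≤ ∑ y ∈ H.neighborFinset (ψ r), D ^ m := by
          refine Finset.card_biUnion_le.trans (Finset.sum_le_sum ?_)
          intro y _
          exact ih (insert w R) hcard hreach' _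
      _ = (H.neighborFinset (ψ r)).card * D ^ m := by
          rw [Finset.sum_const, smul_eq_mul]
      _ ≤ D * D ^ m := Nat.mul_le_mul_right _ hdeg
      _ = D ^ (m + 1) := by ring

/-- copies of a connected graph with one prescribed value -/
lemma card_copy_rooted_le (F : SimpleGraph W) (hF : F.Connected) (H : SimpleGraph V)
    (D : ℕ) (hD : ∀ v, (H.neighborSet v).ncard ≤ D) (u : W) (x : V) :
    (Finset.univ.filter (fun f : Copy F H => f u = x)).card ≤ D ^ (Fintype.card W - 1) := by
  have h := card_hom_ext_le F H D hD (Fintype.card W - 1) {u}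
    (by rw [Finset.card_compl, Finset.card_singleton])
    (fun w => ⟨u, Finset.mem_singleton_self u, hF.preconnected u w⟩) (fun _ => x)
  refine le_trans ?_ h
  refine Finset.card_le_card_of_injOn (fun f : Copy F H => (f : W → V)) ?_ ?_
  · intro f hf
    rw [Finset.mem_coe, Finset.mem_filter] at hf
    rw [Finset.mem_coe, Finset.mem_filter]
    refine ⟨Finset.mem_univ _, fun a b hab => f.toHom.map_adj hab, ?_⟩
    intro r hr
    rw [Finset.mem_singleton] at hr
    subst hr
    exact hf.2
  · intro f _ g _ hfg
    exact DFunLike.coe_injective hfg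

end Rooted

end Vale.Agent.Lib.P064
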