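import Vale.Agent.Lib.P064.Counting

/-!
The star case of the Dubroff-Kahn-Park counting statement, in closed form.
-/

open SimpleGraph Finset

namespace Vale.Agent.Lib.P064

lemma star_edge_ncard (t : ℕ) : (starGraph (0 : Fin (t + 1))).edgeSet.ncard = t := by
  classical
  have h := (isTree_starGraph (0 : Fin (t + 1))).card_edgeFinset
  rw [Fintype.card_fin] at h
  rw [← Set.ncard_coe_finset, coe_edgeFinset] at h
  omega

lemma const_bound (q : ℝ) (hq0 : 0 ≤ q) (t : ℕ) (ht : 1 ≤ t) :
    2 * (1 + Real.exp 1) * (2 * (Real.exp 1 * q)) ^ t ≤ (41 * q) ^ t := by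
  obtain ⟨s, rfl⟩ := Nat.exists_eq_add_of_le ht
  have hE := Real.exp_one_lt_d9
  have hE0 : 0 < Real.exp 1 := Real.exp_pos 1
  have h1 : 2 * (Real.exp 1 * q) ≤ 41 * q := by nlinarith
  have h2 : 2 * (1 + Real.exp 1) * (2 * (Real.exp 1 * q)) ≤ 41 * q := by
    have : 2 * (1 + Real.exp 1) * (2 * Real.exp 1) ≤ 41 := by nlinarith
    nlinarith
  have h3 : (2 * (Real.exp 1 * q)) ^ s ≤ (41 * q) ^ s :=
    pow_le_pow_left₀ (by positivity) h1 s
  calc 2 * (1 + Real.exp 1) * (2 * (Real.exp 1 * q)) ^ (1 + s)
      = (2 * (Real.exp 1 * q)) ^ s * (2 * (1 + Real.exp 1) * (2 * (Real.exp 1 * q))) := by ring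
    _ ≤ (41 * q) ^ s * (41 * q) := mul_le_mul h3 h2 (by positivity) (by positivity)
    _ = (41 * q) ^ (1 + s) := by ring


/-- the degree-tail bound extracted from the hypothesis on unions of stars -/
lemma tail_bound {V : Type*} [Fintype V] [DecidableEq V] (n : ℕ) (H : SimpleGraph V)
    [DecidableRel H.Adj] (q : ℝ) (hq0 : 0 ≤ q) (hq1 : q ≤ 1)
    (hH : ∀ K : H.Subgraph,
      1 ≤ ((⊤ : SimpleGraph (Fin n)).copyCount K.coe : ℝ) * q ^ K.coe.edgeSet.ncard)
    (A : Finset V) (d : ℕ) :
    ((A.filter (fun v => d ≤ (H.neighborFinset v \ A).card)).card : ℝ)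
      ≤ Real.exp 1 * ((n * (n - 1).choose d : ℕ) * q ^ d) := by
  set S := A.filter (fun v => d ≤ (H.neighborFinset v \ A).card) with hS
  rcases Nat.eq_zero_or_pos S.card with h0 | hpos
  · rw [h0]
    simp only [Nat.cast_zero]
    positivity
  have hex : ∀ v, ∃ T : Finset V, v ∈ S → (T ⊆ H.neighborFinset v \ A ∧ T.card = d) := by
    intro v
    by_cases hv : v ∈ S
    · obtain ⟨T, hT1, hT2⟩ := Finset.exists_subset_card_eq ((Finset.mem_filter.1 hv).2)
      exact ⟨T, fun _ => ⟨hT1, hT2⟩⟩
    · exact ⟨∅, fun h => absurd h hv⟩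
  choose T hT using hex
  have hTadj : ∀ v ∈ S, ∀ w ∈ T v, H.Adj v w := by
    intro v hv w hw
    have := (hT v hv).1 hw
    rw [Finset.mem_sdiff, mem_neighborFinset] at this
    exact this.1
  have hTA : ∀ v ∈ S, Disjoint (T v) A := by
    intro v hv
    rw [Finset.disjoint_left]
    intro w hw
    have := (hT v hv).1 hw
    rw [Finset.mem_sdiff] at this
    exact this.2
  have hd : ∀ v ∈ S, (T v).card = d := fun v hv => (hT v hv).2
  have h1 := hH (starUnion H S T hTadj)
  have h2 := copyCount_top_starUnion_le n H S T hTadj d hd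
  have h3 := starUnion_edge_card H S T hTadj A (Finset.filter_subset _ _) hTA d hd
  have h4 : q ^ (starUnion H S T hTadj).coe.edgeSet.ncard ≤ (q ^ d) ^ S.card := by
    rw [← pow_mul, mul_comm d]
    exact pow_le_pow_of_le_one hq0 hq1 h3
  have h5 : 1 ≤ (((n * (n - 1).choose d).choose S.card : ℕ) : ℝ) * (q ^ d) ^ S.card := by
    refine h1.trans (mul_le_mul ?_ h4 (by positivity) (by positivity))
    exact_mod_cast h2
  exact m_le_of_choose _ _ _ (by positivity) hpos h5

theorem star_closed {V : Type*} [Fintype V] (n : ℕ) (H : SimpleGraph V)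
    (hV : Fintype.card V ≤ n) (q : ℝ) (hq0 : 0 ≤ q) (hq1 : q ≤ 1)
    (hH : ∀ K : H.Subgraph,
      1 ≤ ((⊤ : SimpleGraph (Fin n)).copyCount K.coe : ℝ) * q ^ K.coe.edgeSet.ncard)
    (t : ℕ) (ht : 1 ≤ t) :
    (H.copyCount (starGraph (0 : Fin (t + 1))) : ℝ)
      ≤ ((⊤ : SimpleGraph (Fin n)).copyCount (starGraph (0 : Fin (t + 1))) : ℝ)
        * (min 1 (41 * q)) ^ (starGraph (0 : Fin (t + 1))).edgeSet.ncard := by
  classical
  rw [star_edge_ncard]
  set F := starGraph (0 : Fin (t + 1)) with hF
  set aut := Nat.card (F ≃g F) with haut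
  have hfin : Finite (F ≃g F) :=
    Finite.of_injective (fun e : F ≃g F => (e : Fin (t + 1) → Fin (t + 1))) DFunLike.coe_injective
  have hne : Nonempty (F ≃g F) := ⟨Iso.refl⟩
  have hautpos : 0 < aut := Nat.card_pos
  have hautR : (0 : ℝ) < aut := by exact_mod_cast hautpos
  have hHl := labelledCopyCount_eq H F
  have hTl := labelledCopyCount_eq (⊤ : SimpleGraph (Fin n)) F
  rw [labelledCopyCount_top, Fintype.card_fin] at hTl
  have hdesc : n.descFactorial (t + 1) = t.factorial * (n * (n - 1).choose t) := by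
    cases n with
    | zero => simp
    | succ k =>
      rw [Nat.succ_descFactorial_succ, Nat.descFactorial_eq_factorial_mul_choose]
      simp only [Nat.add_sub_cancel]
      ring
  rcases le_total 1 (41 * q) with hbig | hsmall
  · rw [min_eq_left hbig, one_pow, mul_one]
    have h1 : H.copyCount F * aut ≤ (⊤ : SimpleGraph (Fin n)).copyCount F * aut := by
      rw [← hHl, ← hTl]
      refine (labelledCopyCount_le_descFactorial H F).trans ?_
      rw [Fintype.card_fin]
      exact Nat.descFactorial_le _ hV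
    exact_mod_cast Nat.le_of_mul_le_mul_right h1 hautpos
  · rw [min_eq_right hsmall]
    obtain ⟨A, hA⟩ := exists_bipartition H t
    have hbound := analytic_bound A (fun v => (H.neighborFinset v \ A).card) n t q hq0 ht
      ((Finset.card_le_univ A).trans hV) (by
        intro v _
        have h1 : (H.neighborFinset v \ A).card ≤ H.degree v := by
          rw [← card_neighborFinset_eq_degree]
          exact Finset.card_le_card Finset.sdiff_subset
        have h2 := H.degree_lt_card_verts v
        omega) (fun d => tail_bound n H q hq0 hq1 hH A d)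
    have hX : (H.labelledCopyCount F : ℝ) ≤ t.factorial * ∑ v : V, ((H.degree v).choose t : ℝ) := by
      have := labelledCopyCount_star_le H t
      simp_rw [Nat.descFactorial_eq_factorial_mul_choose, ← Finset.mul_sum] at this
      exact_mod_cast this
    have hA' : (∑ v : V, ((H.degree v).choose t : ℝ)) ≤
        2 ^ (t + 1) * ∑ v ∈ A, (((H.neighborFinset v \ A).card).choose t : ℝ) := by
      exact_mod_cast hA
    have hfac : (0 : ℝ) ≤ t.factorial := Nat.cast_nonneg _
    have hmain : (H.copyCount F : ℝ) * aut ≤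
        ((⊤ : SimpleGraph (Fin n)).copyCount F : ℝ) * (41 * q) ^ t * aut := by
      have e1 : (H.copyCount F : ℝ) * aut = H.labelledCopyCount F := by
        rw [hHl]; push_cast; ring
      have e2 : ((⊤ : SimpleGraph (Fin n)).copyCount F : ℝ) * aut
          = t.factorial * (n * (n - 1).choose t) := by
        have : ((⊤ : SimpleGraph (Fin n)).copyCount F * aut : ℕ) = t.factorial * (n * (n - 1).choose t) := by
          rw [← hTl, hdesc]
        exact_mod_cast this
      calc (H.copyCount F : ℝ) * aut = H.labelledCopyCount F := e1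
        _ ≤ t.factorial * ∑ v : V, ((H.degree v).choose t : ℝ) := hX
        _ ≤ t.factorial * (2 ^ (t + 1) * ((1 + Real.exp 1) *
              (n * (n - 1).choose t * (Real.exp 1 * q) ^ t))) := by
            refine mul_le_mul_of_nonneg_left (hA'.trans ?_) hfac
            exact mul_le_mul_of_nonneg_left hbound (by positivity)
        _ = (t.factorial * (n * (n - 1).choose t)) *
              (2 * (1 + Real.exp 1) * (2 * (Real.exp 1 * q)) ^ t) := by
            rw [mul_pow 2 (Real.exp 1 * q) t]; ring
        _ ≤ (t.factorial * (n * (n - 1).choose t)) * (41 * q) ^ t :=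
            mul_le_mul_of_nonneg_left (const_bound q hq0 t ht) (by positivity)
        _ = ((⊤ : SimpleGraph (Fin n)).copyCount F : ℝ) * (41 * q) ^ t * aut := by
            rw [← e2]; ring
    exact le_of_mul_le_mul_right hmain hautR

end Vale.Agent.Lib.P064
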